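import Mathlib

/-!
# Row 189, block B1: coherent orthomodular posets

`Cp a b` means that `a` and `b` are compatible.  `a ⊓ b`, `a ⊔ b` are total operations, meaningful for
compatible pairs.  A *block* is a set of pairwise compatible elements closed under the operations; it is
a Boolean algebra.  A *point* of a block is a two-valued homomorphism; `Blk.le_of_pt` reduces
inequalities inside a block to classical logic.
-/

set_option autoImplicit false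

namespace Crest.Agent.R189

/-- coherent orthomodular poset -/
class COMP (C : Type*) extends PartialOrder C, BoundedOrder C, Min C, Max C, Compl C where
  /-- compatibility -/
  Cp : C → C → Prop
  cp_symm : ∀ {a b : C}, Cp a b → Cp b a
  cp_of_le : ∀ {a b : C}, a ≤ b → Cp a b
  cp_compl : ∀ {a b : C}, Cp a b → Cp a bᶜ
  cp_inf : ∀ {a b c : C}, Cp a b → Cp a c → Cp b c → Cp a (b ⊓ c)
  compl_compl' : ∀ a : C, aᶜᶜ = a
  compl_anti : ∀ {a b : C}, a ≤ b → bᶜ ≤ aᶜ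
  inf_le_l : ∀ {a b : C}, Cp a b → a ⊓ b ≤ a
  inf_le_r : ∀ {a b : C}, Cp a b → a ⊓ b ≤ b
  le_inf' : ∀ {a b x : C}, Cp a b → x ≤ a → x ≤ b → x ≤ a ⊓ b
  sup_eq : ∀ a b : C, a ⊔ b = (aᶜ ⊓ bᶜ)ᶜ
  inf_compl' : ∀ a : C, a ⊓ aᶜ = ⊥
  split : ∀ {a b : C}, Cp a b → a = (a ⊓ b) ⊔ (a ⊓ bᶜ)

namespace COMP

variable {C : Type*} [COMP C] {a b c x : C}

theorem cp_refl (a : C) : Cp a a := cp_of_le le_rfl
theorem cp_top (a : C) : Cp a ⊤ := cp_of_le le_top
theorem cp_bot (a : C) : Cp a ⊥ := cp_symm (cp_of_le bot_le)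
theorem cp_of_ge (h : b ≤ a) : Cp a b := cp_symm (cp_of_le h)
theorem cp_compl_l (h : Cp a b) : Cp aᶜ b := cp_symm (cp_compl (cp_symm h))
theorem cp_compl_iff : Cp a bᶜ ↔ Cp a b :=
  ⟨fun h => by simpa [compl_compl'] using cp_compl h, cp_compl⟩
theorem cp_cc (h : Cp a b) : Cp aᶜ bᶜ := cp_compl (cp_compl_l h)
theorem cp_of_orth (h : a ≤ bᶜ) : Cp a b := cp_compl_iff.1 (cp_of_le h)
theorem le_compl_comm : a ≤ bᶜ ↔ b ≤ aᶜ :=
  ⟨fun h => by simpa [compl_compl'] using compl_anti h, fun h => by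
    simpa [compl_compl'] using compl_anti h⟩
theorem compl_le_compl_iff : aᶜ ≤ bᶜ ↔ b ≤ a :=
  ⟨fun h => by simpa [compl_compl'] using compl_anti h, compl_anti⟩
theorem compl_inj (h : aᶜ = bᶜ) : a = b := by rw [← compl_compl' a, h, compl_compl']
theorem compl_top' : (⊤ : C)ᶜ = ⊥ :=
  le_antisymm (by simpa [compl_compl'] using compl_anti (le_top (a := (⊥ : C)ᶜ))) bot_le
theorem compl_bot' : (⊥ : C)ᶜ = ⊤ := by rw [← compl_top', compl_compl']
theorem cp_sup (hab : Cp a b) (hac : Cp a c) (hbc : Cp b c) : Cp a (b ⊔ c) := by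
  rw [sup_eq]; exact cp_compl (cp_inf (cp_compl hab) (cp_compl hac) (cp_cc hbc))
theorem le_sup_l (h : Cp a b) : a ≤ a ⊔ b := by
  rw [sup_eq]; exact le_compl_comm.1 (inf_le_l (cp_cc h))
theorem le_sup_r (h : Cp a b) : b ≤ a ⊔ b := by
  rw [sup_eq]; exact le_compl_comm.1 (inf_le_r (cp_cc h))
theorem sup_le' (h : Cp a b) (ha : a ≤ x) (hb : b ≤ x) : a ⊔ b ≤ x := by
  rw [sup_eq, ← compl_compl' x]
  exact compl_anti (le_inf' (cp_cc h) (compl_anti ha) (compl_anti hb))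
theorem inf_comm' (h : Cp a b) : a ⊓ b = b ⊓ a :=
  le_antisymm (le_inf' (cp_symm h) (inf_le_r h) (inf_le_l h))
    (le_inf' h (inf_le_r (cp_symm h)) (inf_le_l (cp_symm h)))
theorem sup_comm' (h : Cp a b) : a ⊔ b = b ⊔ a := by rw [sup_eq, sup_eq, inf_comm' (cp_cc h)]
theorem inf_of_le (h : a ≤ b) : a ⊓ b = a :=
  le_antisymm (inf_le_l (cp_of_le h)) (le_inf' (cp_of_le h) le_rfl h)
theorem sup_of_le (h : a ≤ b) : a ⊔ b = b :=
  le_antisymm (sup_le' (cp_of_le h) h le_rfl) (le_sup_r (cp_of_le h))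
/-- an element below `b` and below `bᶜ` is zero -/
theorem eq_bot_of_le_compl (h : a ≤ b) (h' : a ≤ bᶜ) : a = ⊥ :=
  le_antisymm (by rw [← inf_compl' b]; exact le_inf' (cp_compl (cp_refl b)) h h') bot_le
theorem compl_inf' (a b : C) : (aᶜ ⊓ bᶜ)ᶜ = a ⊔ b := (sup_eq a b).symm
theorem compl_sup' (a b : C) : (a ⊔ b)ᶜ = aᶜ ⊓ bᶜ := by rw [sup_eq, compl_compl']
theorem sup_compl' (a : C) : a ⊔ aᶜ = ⊤ := by
  rw [sup_eq, compl_compl', inf_comm' (cp_compl_l (cp_refl a)), inf_compl', compl_bot']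
/-- for compatible elements: orthogonal iff the meet is zero -/
theorem le_compl_of_inf_eq_bot (h : Cp a b) (h0 : a ⊓ b = ⊥) : a ≤ bᶜ := by
  have := split h
  rw [h0, sup_of_le bot_le] at this
  rw [this]; exact inf_le_r (cp_compl h)
theorem inf_eq_bot_of_le_compl (h : a ≤ bᶜ) : a ⊓ b = ⊥ :=
  eq_bot_of_le_compl (inf_le_r (cp_of_orth h)) ((inf_le_l (cp_of_orth h)).trans h)
theorem le_of_inf_compl_eq_bot (h : Cp a b) (h0 : a ⊓ bᶜ = ⊥) : a ≤ b := by
  simpa [compl_compl'] using le_compl_of_inf_eq_bot (cp_compl h) h0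
/-- `x ≤ b`, `y ≤ bᶜ`: the sum is compatible with `b` -/
theorem cp_of_split {y : C} (hx : x ≤ b) (hy : y ≤ bᶜ) : Cp (x ⊔ y) b :=
  cp_symm (cp_sup (cp_of_ge hx) (cp_symm (cp_of_orth hy))
    (cp_of_orth (hx.trans (le_compl_comm.1 hy))))

end COMP

open COMP

/-- a block: pairwise compatible and closed under the operations -/
structure Blk (C : Type*) [COMP C] where
  carrier : Set C
  cp : ∀ {a b : C}, a ∈ carrier → b ∈ carrier → Cp a b
  top_mem : ⊤ ∈ carrier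
  compl_mem : ∀ {a : C}, a ∈ carrier → aᶜ ∈ carrier
  inf_mem : ∀ {a b : C}, a ∈ carrier → b ∈ carrier → a ⊓ b ∈ carrier

variable {C : Type*} [COMP C]

instance : Membership C (Blk C) := ⟨fun B a => a ∈ B.carrier⟩

/-- the Boolean combinations of the elements of `S` -/
inductive Gen (S : Set C) : C → Prop
  | of {a : C} : a ∈ S → Gen S a
  | top : Gen S ⊤
  | compl {a : C} : Gen S a → Gen S aᶜ
  | inf {a b : C} : Gen S a → Gen S b → Gen S (a ⊓ b)

/-- `S` is a set of pairwise compatible elements -/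
def PCp (S : Set C) : Prop := ∀ a ∈ S, ∀ b ∈ S, Cp a b

theorem Gen.mono {S T : Set C} (h : S ⊆ T) {a : C} (ha : Gen S a) : Gen T a := by
  induction ha with
  | of h' => exact .of (h h')
  | top => exact .top
  | compl _ ih => exact .compl ih
  | inf _ _ ih1 ih2 => exact .inf ih1 ih2

theorem Gen.bot {S : Set C} : Gen S ⊥ := by rw [← compl_top']; exact .compl .top

theorem Gen.sup {S : Set C} {a b : C} (ha : Gen S a) (hb : Gen S b) : Gen S (a ⊔ b) := by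
  rw [sup_eq]; exact .compl (.inf (.compl ha) (.compl hb))

/-- auxiliary: `b` generated by `S` is compatible with everything generated by `S` and with every
element compatible with `S` -/
theorem PCp.gen_aux {S : Set C} (hS : PCp S) {b : C} (hb : Gen S b) :
    ∀ x, (∀ s ∈ S, Cp x s) → Cp x b ∧ ∀ s ∈ S, Cp b s := by
  induction hb with
  | of h => exact fun x hx => ⟨hx _ h, fun s hs => hS _ h _ hs⟩
  | top => exact fun x _ => ⟨cp_top x, fun s _ => cp_symm (cp_top s)⟩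
  | compl _ ih => exact fun x hx => ⟨cp_compl (ih x hx).1, fun s hs => cp_compl_l ((ih x hx).2 s hs)⟩
  | @inf a b _ _ ih1 ih2 =>
    intro x hx
    have hab : Cp a b := (ih2 a (ih1 x hx).2).1
    exact ⟨cp_inf (ih1 x hx).1 (ih2 x hx).1 hab, fun s hs => cp_symm
      (cp_inf (cp_symm ((ih1 x hx).2 s hs)) (cp_symm ((ih2 x hx).2 s hs)) hab)⟩

/-- an element compatible with a pairwise compatible set is compatible with its Boolean combinations -/
theorem PCp.cp_gen {S : Set C} (hS : PCp S) {x b : C} (hx : ∀ s ∈ S, Cp x s) (hb : Gen S b) :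
    Cp x b := (hS.gen_aux hb x hx).1

theorem PCp.gen_gen {S : Set C} (hS : PCp S) {a b : C} (ha : Gen S a) (hb : Gen S b) : Cp a b :=
  hS.cp_gen (hS.gen_aux ha ⊤ fun s _ => cp_symm (cp_top s)).2 hb

/-- two families: if `S ∪ T` is only known to be compatible blockwise -/
theorem PCp.gen_gen' {S T : Set C} (hS : PCp S) (hT : PCp T) (h : ∀ s ∈ S, ∀ t ∈ T, Cp s t)
    {a b : C} (ha : Gen S a) (hb : Gen T b) : Cp a b :=
  hT.cp_gen (fun t ht => cp_symm (hS.cp_gen (fun s hs => cp_symm (h s hs t ht)) ha)) hb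

/-- the block generated by a pairwise compatible set -/
def PCp.blk {S : Set C} (hS : PCp S) : Blk C where
  carrier := {a | Gen S a}
  cp := hS.gen_gen
  top_mem := .top
  compl_mem := .compl
  inf_mem := .inf

theorem PCp.mem_blk {S : Set C} (hS : PCp S) {a : C} : a ∈ hS.blk ↔ Gen S a := Iff.rfl

namespace Blk

variable (B : Blk C) {a b c : C}

theorem cp' (ha : a ∈ B) (hb : b ∈ B) : Cp a b := B.cp ha hb
theorem top' : ⊤ ∈ B := B.top_mem
theorem compl' (ha : a ∈ B) : aᶜ ∈ B := B.compl_mem ha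
theorem inf' (ha : a ∈ B) (hb : b ∈ B) : a ⊓ b ∈ B := B.inf_mem ha hb
theorem bot' : ⊥ ∈ B := by rw [← compl_top']; exact B.compl' B.top'
theorem sup' (ha : a ∈ B) (hb : b ∈ B) : a ⊔ b ∈ B := by
  rw [sup_eq]; exact B.compl' (B.inf' (B.compl' ha) (B.compl' hb))

theorem distrib (ha : a ∈ B) (hb : b ∈ B) (hc : c ∈ B) : a ⊓ (b ⊔ c) ≤ (a ⊓ b) ⊔ (a ⊓ c) := by
  have hbc := B.sup' hb hc
  have hw := B.inf' ha hbc
  have hab := B.inf' ha hb
  have hac := B.inf' ha hc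
  have wa : a ⊓ (b ⊔ c) ≤ a := inf_le_l (B.cp' ha hbc)
  have wbc : a ⊓ (b ⊔ c) ≤ b ⊔ c := inf_le_r (B.cp' ha hbc)
  set w := a ⊓ (b ⊔ c) with hwdef
  have hu := B.inf' hw (B.compl' hb)
  have uw : w ⊓ bᶜ ≤ w := inf_le_l (B.cp' hw (B.compl' hb))
  have ub : w ⊓ bᶜ ≤ bᶜ := inf_le_r (B.cp' hw (B.compl' hb))
  have uc : w ⊓ bᶜ ≤ c := by
    refine le_of_inf_compl_eq_bot (B.cp' hu hc) ?_
    have h1 := inf_le_l (B.cp' hu (B.compl' hc))
    have h2 := inf_le_r (B.cp' hu (B.compl' hc))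
    refine eq_bot_of_le_compl (b := b ⊔ c) (h1.trans (uw.trans wbc)) ?_
    rw [compl_sup']
    exact le_inf' (cp_cc (B.cp' hb hc)) (h1.trans ub) h2
  rw [split (B.cp' hw hb)]
  refine sup_le' (B.cp' (B.inf' hw hb) hu) ?_ ?_
  · exact (le_inf' (B.cp' ha hb) ((inf_le_l (B.cp' hw hb)).trans wa)
      (inf_le_r (B.cp' hw hb))).trans (le_sup_l (B.cp' hab hac))
  · exact (le_inf' (B.cp' ha hc) (uw.trans wa) uc).trans (le_sup_r (B.cp' hab hac))

/-- the elements of a block -/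
def El : Type _ := {a : C // a ∈ B}

instance : Lattice B.El where
  le a b := a.1 ≤ b.1
  le_refl a := le_refl a.1
  le_trans _ _ _ h h' := le_trans h h'
  le_antisymm _ _ h h' := Subtype.ext (le_antisymm h h')
  sup a b := ⟨a.1 ⊔ b.1, B.sup' a.2 b.2⟩
  inf a b := ⟨a.1 ⊓ b.1, B.inf' a.2 b.2⟩
  le_sup_left a b := le_sup_l (B.cp' a.2 b.2)
  le_sup_right a b := le_sup_r (B.cp' a.2 b.2)
  sup_le a b _ h h' := sup_le' (B.cp' a.2 b.2) h h'
  inf_le_left a b := inf_le_l (B.cp' a.2 b.2)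
  inf_le_right a b := inf_le_r (B.cp' a.2 b.2)
  le_inf _ b c h h' := le_inf' (B.cp' b.2 c.2) h h'

instance : DistribLattice B.El :=
  DistribLattice.ofInfSupLe fun a b c => B.distrib a.2 b.2 c.2

instance : BooleanAlgebra B.El where
  top := ⟨⊤, B.top'⟩
  bot := ⟨⊥, B.bot'⟩
  compl a := ⟨a.1ᶜ, B.compl' a.2⟩
  le_top a := show a.1 ≤ ⊤ from le_top
  bot_le a := show ⊥ ≤ a.1 from bot_le
  inf_compl_le_bot a := show a.1 ⊓ a.1ᶜ ≤ ⊥ from (inf_compl' a.1).le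
  top_le_sup_compl a := show ⊤ ≤ a.1 ⊔ a.1ᶜ from (sup_compl' a.1).ge

theorem El.le_iff {a b : B.El} : a ≤ b ↔ a.1 ≤ b.1 := Iff.rfl
@[simp] theorem El.val_inf (a b : B.El) : (a ⊓ b).1 = a.1 ⊓ b.1 := rfl
@[simp] theorem El.val_sup (a b : B.El) : (a ⊔ b).1 = a.1 ⊔ b.1 := rfl
@[simp] theorem El.val_compl (a : B.El) : (aᶜ).1 = a.1ᶜ := rfl
@[simp] theorem El.val_top : (⊤ : B.El).1 = ⊤ := rfl
@[simp] theorem El.val_bot : (⊥ : B.El).1 = ⊥ := rfl

end Blk

/-- a point of a block: a two-valued homomorphism -/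
structure Pt (B : Blk C) where
  /-- the elements that hold at the point -/
  p : C → Prop
  mono : ∀ {a b : C}, a ∈ B → b ∈ B → a ≤ b → p a → p b
  top : p ⊤
  inf : ∀ {a b : C}, a ∈ B → b ∈ B → (p (a ⊓ b) ↔ p a ∧ p b)
  compl : ∀ {a : C}, a ∈ B → (p aᶜ ↔ ¬ p a)

namespace Pt

variable {B : Blk C} (x : Pt B) {a b : C}

theorem not_bot : ¬ x.p ⊥ := by
  rw [← compl_top', x.compl B.top']; exact fun h => h x.top

theorem sup (ha : a ∈ B) (hb : b ∈ B) : x.p (a ⊔ b) ↔ x.p a ∨ x.p b := by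
  rw [sup_eq, x.compl (B.inf' (B.compl' ha) (B.compl' hb)), x.inf (B.compl' ha) (B.compl' hb),
    x.compl ha, x.compl hb]
  tauto

theorem not_of_orth (ha : a ∈ B) (hb : b ∈ B) (h : a ≤ bᶜ) (pa : x.p a) : ¬ x.p b :=
  (x.compl hb).1 (x.mono ha (B.compl' hb) h pa)

end Pt

/-- a non-zero element of a block holds at some point -/
theorem Blk.exists_pt (B : Blk C) {a : C} (ha : a ∈ B) (h0 : a ≠ ⊥) : ∃ x : Pt B, x.p a := by
  classical
  let a' : B.El := ⟨a, ha⟩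
  have hp : Order.Ideal.IsProper (Order.Ideal.principal a'ᶜ) := by
    refine Order.Ideal.isProper_of_notMem (p := ⊤) ?_
    intro h
    have h1 : (⊤ : B.El) ≤ a'ᶜ := h
    have h2 : a' = ⊥ := by simpa using h1
    exact h0 (congrArg Subtype.val h2)
  obtain ⟨I, hI, hmax⟩ := hp.exists_le_maximal
  have hpr : I.IsPrime := hmax.isPrime
  have hmem : a'ᶜ ∈ I := hI (Order.Ideal.mem_principal.2 le_rfl)
  have key : ∀ u : B.El, uᶜ ∈ I ↔ u ∉ I := fun u =>
    ⟨fun h h' => hpr.toIsProper.top_notMem (by simpa using I.sup_mem h' h),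
      fun h => (hpr.mem_or_compl_mem (x := u)).resolve_left h⟩
  refine ⟨⟨fun u => ∃ h : u ∈ B, (⟨u, h⟩ : B.El) ∉ I, ?_, ⟨B.top', hpr.toIsProper.top_notMem⟩, ?_, ?_⟩,
    ha, (key a').1 hmem⟩
  · rintro u v hu hv huv ⟨_, h⟩
    exact ⟨hv, fun h' => h (I.lower (show (⟨u, hu⟩ : B.El) ≤ ⟨v, hv⟩ from huv) h')⟩
  · intro u v hu hv
    constructor
    · rintro ⟨_, h⟩
      exact ⟨⟨hu, fun h' => h (I.lower (inf_le_left (α := B.El) (a := ⟨u, hu⟩) (b := ⟨v, hv⟩)) h')⟩,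
        ⟨hv, fun h' => h (I.lower (inf_le_right (α := B.El) (a := ⟨u, hu⟩) (b := ⟨v, hv⟩)) h')⟩⟩
    · rintro ⟨⟨_, h1⟩, ⟨_, h2⟩⟩
      refine ⟨B.inf' hu hv, fun h => ?_⟩
      rcases hpr.mem_or_mem (x := (⟨u, hu⟩ : B.El)) (y := ⟨v, hv⟩) h with h | h
      · exact h1 h
      · exact h2 h
  · intro u hu
    constructor
    · rintro ⟨_, h⟩ ⟨_, h'⟩
      exact h ((key ⟨u, hu⟩).2 h')
    · intro h
      exact ⟨B.compl' hu, fun h' => h ⟨hu, (key ⟨u, hu⟩).1 h'⟩⟩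

/-- POINT PRINCIPLE -/
theorem Blk.le_of_pt (B : Blk C) {a b : C} (ha : a ∈ B) (hb : b ∈ B)
    (h : ∀ x : Pt B, x.p a → x.p b) : a ≤ b := by
  refine le_of_inf_compl_eq_bot (B.cp' ha hb) ?_
  by_contra h0
  obtain ⟨x, hx⟩ := B.exists_pt (B.inf' ha (B.compl' hb)) h0
  rw [x.inf ha (B.compl' hb), x.compl hb] at hx
  exact hx.2 (h x hx.1)

theorem Blk.eq_of_pt (B : Blk C) {a b : C} (ha : a ∈ B) (hb : b ∈ B)
    (h : ∀ x : Pt B, x.p a ↔ x.p b) : a = b :=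
  le_antisymm (B.le_of_pt ha hb fun x => (h x).1) (B.le_of_pt hb ha fun x => (h x).2)

theorem Blk.eq_bot_of_pt (B : Blk C) {a : C} (ha : a ∈ B) (h : ∀ x : Pt B, ¬ x.p a) : a = ⊥ := by
  by_contra h0
  obtain ⟨x, hx⟩ := B.exists_pt ha h0
  exact h x hx

theorem Blk.eq_top_of_pt (B : Blk C) {a : C} (ha : a ∈ B) (h : ∀ x : Pt B, x.p a) : a = ⊤ :=
  le_antisymm le_top (B.le_of_pt B.top' ha fun x _ => h x)

theorem Blk.orth_of_pt (B : Blk C) {a b : C} (ha : a ∈ B) (hb : b ∈ B)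
    (h : ∀ x : Pt B, x.p a → ¬ x.p b) : a ≤ bᶜ :=
  B.le_of_pt ha (B.compl' hb) fun x hx => (x.compl hb).2 (h x hx)

/-- a point of a bigger block is a point of a smaller block -/
def Pt.restrict {B B' : Blk C} (h : ∀ a, a ∈ B → a ∈ B') (x : Pt B') : Pt B where
  p := x.p
  mono ha hb := x.mono (h _ ha) (h _ hb)
  top := x.top
  inf ha hb := x.inf (h _ ha) (h _ hb)
  compl ha := x.compl (h _ ha)

/-! ### finite joins and meets -/

/-- finite join (meaningful for pairwise compatible families) -/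
noncomputable def jn {ι : Type*} (s : Finset ι) (f : ι → C) : C :=
  s.toList.foldr (fun i a => f i ⊔ a) ⊥

/-- finite meet (meaningful for pairwise compatible families) -/
noncomputable def mt {ι : Type*} (s : Finset ι) (f : ι → C) : C :=
  s.toList.foldr (fun i a => f i ⊓ a) ⊤

section Fin

variable {ι : Type*} {s : Finset ι} {f : ι → C}

theorem Blk.foldr_sup_mem (B : Blk C) (l : List ι) (h : ∀ i ∈ l, f i ∈ B) :
    l.foldr (fun i a => f i ⊔ a) ⊥ ∈ B := by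
  induction l with
  | nil => exact B.bot'
  | cons i l ih => exact B.sup' (h i (by simp)) (ih fun j hj => h j (by simp [hj]))

theorem Blk.foldr_inf_mem (B : Blk C) (l : List ι) (h : ∀ i ∈ l, f i ∈ B) :
    l.foldr (fun i a => f i ⊓ a) ⊤ ∈ B := by
  induction l with
  | nil => exact B.top'
  | cons i l ih => exact B.inf' (h i (by simp)) (ih fun j hj => h j (by simp [hj]))

theorem Blk.jn_mem (B : Blk C) (h : ∀ i ∈ s, f i ∈ B) : jn s f ∈ B :=
  B.foldr_sup_mem _ fun i hi => h i (Finset.mem_toList.1 hi)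

theorem Blk.mt_mem (B : Blk C) (h : ∀ i ∈ s, f i ∈ B) : mt s f ∈ B :=
  B.foldr_inf_mem _ fun i hi => h i (Finset.mem_toList.1 hi)

theorem Pt.foldr_sup {B : Blk C} (x : Pt B) (l : List ι) (h : ∀ i ∈ l, f i ∈ B) :
    x.p (l.foldr (fun i a => f i ⊔ a) ⊥) ↔ ∃ i ∈ l, x.p (f i) := by
  induction l with
  | nil => simpa using x.not_bot
  | cons i l ih =>
    have h' : ∀ j ∈ l, f j ∈ B := fun j hj => h j (by simp [hj])
    rw [List.foldr_cons, x.sup (h i (by simp)) (B.foldr_sup_mem l h'), ih h']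
    simp

theorem Pt.foldr_inf {B : Blk C} (x : Pt B) (l : List ι) (h : ∀ i ∈ l, f i ∈ B) :
    x.p (l.foldr (fun i a => f i ⊓ a) ⊤) ↔ ∀ i ∈ l, x.p (f i) := by
  induction l with
  | nil => simpa using x.top
  | cons i l ih =>
    have h' : ∀ j ∈ l, f j ∈ B := fun j hj => h j (by simp [hj])
    rw [List.foldr_cons, x.inf (h i (by simp)) (B.foldr_inf_mem l h'), ih h']
    simp

theorem Pt.jn {B : Blk C} (x : Pt B) (h : ∀ i ∈ s, f i ∈ B) : x.p (jn s f) ↔ ∃ i ∈ s, x.p (f i) := by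
  rw [R189.jn, x.foldr_sup _ fun i hi => h i (Finset.mem_toList.1 hi)]; simp

theorem Pt.mt {B : Blk C} (x : Pt B) (h : ∀ i ∈ s, f i ∈ B) : x.p (mt s f) ↔ ∀ i ∈ s, x.p (f i) := by
  rw [R189.mt, x.foldr_inf _ fun i hi => h i (Finset.mem_toList.1 hi)]; simp

/-- the family is pairwise compatible on `s` -/
def FCp (s : Finset ι) (f : ι → C) : Prop := ∀ i ∈ s, ∀ j ∈ s, Cp (f i) (f j)

theorem FCp.pcp (h : FCp s f) : PCp (f '' (s : Set ι)) := by
  rintro _ ⟨i, hi, rfl⟩ _ ⟨j, hj, rfl⟩; exact h i hi j hj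

theorem FCp.mem (h : FCp s f) : ∀ i ∈ s, f i ∈ h.pcp.blk := fun i hi => Gen.of ⟨i, hi, rfl⟩

theorem FCp.of_blk (B : Blk C) (h : ∀ i ∈ s, f i ∈ B) : FCp s f :=
  fun i hi j hj => B.cp' (h i hi) (h j hj)

theorem Gen.jn {S : Set C} (hS : PCp S) (h : ∀ i ∈ s, Gen S (f i)) : Gen S (jn s f) :=
  hS.blk.jn_mem h

theorem Gen.mt {S : Set C} (hS : PCp S) (h : ∀ i ∈ s, Gen S (f i)) : Gen S (mt s f) :=
  hS.blk.mt_mem h

theorem FCp.le_jn (h : FCp s f) {i : ι} (hi : i ∈ s) : f i ≤ jn s f :=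
  h.pcp.blk.le_of_pt (h.mem i hi) (h.pcp.blk.jn_mem h.mem) fun x hx => (x.jn h.mem).2 ⟨i, hi, hx⟩

theorem FCp.mt_le (h : FCp s f) {i : ι} (hi : i ∈ s) : mt s f ≤ f i :=
  h.pcp.blk.le_of_pt (h.pcp.blk.mt_mem h.mem) (h.mem i hi) fun x hx => (x.mt h.mem).1 hx i hi

theorem FCp.cp_jn (h : FCp s f) {a : C} (ha : ∀ i ∈ s, Cp a (f i)) : Cp a (jn s f) :=
  h.pcp.cp_gen (by rintro _ ⟨i, hi, rfl⟩; exact ha i hi) (h.pcp.blk.jn_mem h.mem)

theorem FCp.cp_mt (h : FCp s f) {a : C} (ha : ∀ i ∈ s, Cp a (f i)) : Cp a (mt s f) :=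
  h.pcp.cp_gen (by rintro _ ⟨i, hi, rfl⟩; exact ha i hi) (h.pcp.blk.mt_mem h.mem)

theorem FCp.insert_pcp (h : FCp s f) {a : C} (ha : ∀ i ∈ s, Cp a (f i)) :
    PCp (insert a (f '' (s : Set ι))) := by
  rintro u (rfl | ⟨i, hi, rfl⟩) v (rfl | ⟨j, hj, rfl⟩)
  · exact cp_refl _
  · exact ha j hj
  · exact cp_symm (ha i hi)
  · exact h i hi j hj

theorem FCp.jn_le (h : FCp s f) {a : C} (ha : ∀ i ∈ s, f i ≤ a) : jn s f ≤ a := by
  have hp := h.insert_pcp fun i hi => cp_of_ge (ha i hi)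
  have hm : ∀ i ∈ s, f i ∈ hp.blk := fun i hi => Gen.of (Or.inr ⟨i, hi, rfl⟩)
  have hma : a ∈ hp.blk := Gen.of (Or.inl rfl)
  refine hp.blk.le_of_pt (hp.blk.jn_mem hm) hma fun x hx => ?_
  obtain ⟨i, hi, hx⟩ := (x.jn hm).1 hx
  exact x.mono (hm i hi) hma (ha i hi) hx

theorem FCp.le_mt (h : FCp s f) {a : C} (ha : ∀ i ∈ s, a ≤ f i) : a ≤ mt s f := by
  have hp := h.insert_pcp fun i hi => cp_of_le (ha i hi)
  have hm : ∀ i ∈ s, f i ∈ hp.blk := fun i hi => Gen.of (Or.inr ⟨i, hi, rfl⟩)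
  have hma : a ∈ hp.blk := Gen.of (Or.inl rfl)
  exact hp.blk.le_of_pt hma (hp.blk.mt_mem hm) fun x hx =>
    (x.mt hm).2 fun i hi => x.mono hma (hm i hi) (ha i hi) hx

end Fin

/-- maps preserving order, complement and compatibility preserve all the operations -/
structure COMP.Hom (C D : Type*) [COMP C] [COMP D] where
  toFun : C → D
  mono : ∀ {a b : C}, a ≤ b → toFun a ≤ toFun b
  compl : ∀ a : C, toFun aᶜ = (toFun a)ᶜ
  cp : ∀ {a b : C}, Cp a b → Cp (toFun a) (toFun b)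
  inf : ∀ {a b : C}, Cp a b → toFun (a ⊓ b) = toFun a ⊓ toFun b
  top : toFun ⊤ = ⊤

end Crest.Agent.R189
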