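import Crest.Agent.R189.B1.Perm
import Crest.Agent.R189.B1.Comp

/-!
# Row 189, block B1: conditions

A condition `P` assigns to a 3-cycle `c` of levels the group element "apply `c` where `P` holds".
-/

set_option autoImplicit false
set_option linter.unusedVariables false

noncomputable section

namespace Crest.Agent.R189.B1

open Equiv C
open scoped commutatorElement

variable {n : ℕ} {Γ : Type*} [Group Γ]

/-- ambient data: `D J` = elements supported on the levels `J`, `one c` = the unconditional 3-cycle -/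
structure Amb (n : ℕ) (Γ : Type*) [Group Γ] where
  hn : 10 ≤ n
  D : Finset (Fin n) → Subgroup Γ
  mono : ∀ {I J : Finset (Fin n)}, I ⊆ J → D I ≤ D J
  comm : ∀ {I J : Finset (Fin n)} {x y : Γ}, Disjoint I J → x ∈ D I → y ∈ D J → Commute x y
  one : Perm (Fin n) → Γ
  pre : Pre one
  mem : ∀ (c : Perm (Fin n)) (J : Finset (Fin n)), c.IsThreeCycle → c.support ⊆ J → 5 ≤ J.card →
    one c ∈ D J

structure IsCond (A : Amb n Γ) (x : Perm (Fin n) → Γ) : Prop where
  pre : Pre x
  mem : ∀ (c : Perm (Fin n)) (J : Finset (Fin n)), c.IsThreeCycle → c.support ⊆ J → 5 ≤ J.card →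
    x c ∈ A.D J
  eqv : ∀ d : Perm (Fin n), d.IsThreeCycle → Acts x (A.one d) d

/-- conditions (normalised to `1` outside the 3-cycles) -/
structure Cond (A : Amb n Γ) where
  val : Perm (Fin n) → Γ
  is : IsCond A val
  junk : ∀ c : Perm (Fin n), ¬ c.IsThreeCycle → val c = 1

variable {A : Amb n Γ}

theorem Cond.ext' {P R : Cond A} (h : ∀ c : Perm (Fin n), c.IsThreeCycle → P.val c = R.val c) : P = R := by
  obtain ⟨p, _, hp⟩ := P
  obtain ⟨r, _, hr⟩ := R
  have : p = r := funext fun c => by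
    by_cases hc : c.IsThreeCycle
    · exact h c hc
    · rw [hp c hc, hr c hc]
  subst this; rfl

theorem Acts.congr {x y : Perm (Fin n) → Γ} (h : ∀ c : Perm (Fin n), c.IsThreeCycle → y c = x c)
    {g : Γ} {σ : Perm (Fin n)} (hx : Acts x g σ) : Acts y g σ := fun t ht => by
  rw [h t ht, h _ (three_conj ht σ)]; exact hx t ht

theorem IsCond.congr {x y : Perm (Fin n) → Γ} (hx : IsCond A x)
    (h : ∀ c : Perm (Fin n), c.IsThreeCycle → y c = x c) : IsCond A y where
  pre := ⟨fun c hc => by rw [h c hc, h _ hc.inv]; exact hx.pre.inv c hc,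
    fun c d hc hd => by rw [h c hc, h d hd, h _ (three_conj hc d)]; exact hx.pre.self c d hc hd,
    fun k a b c h1 h2 h3 h4 h5 h6 => by
      rw [h _ (cy_three h1 h2 h4), h _ (cy_three h2 h3 h6), h _ (cy_three h4 h5 h6)]
      exact hx.pre.four k a b c h1 h2 h3 h4 h5 h6⟩
  mem c J hc h1 h2 := by rw [h c hc]; exact hx.mem c J hc h1 h2
  eqv d hd := (hx.eqv d hd).congr h

open Classical in
/-- the condition given by a family `x` -/
def Cond.mk' (x : Perm (Fin n) → Γ) (h : IsCond A x) : Cond A where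
  val c := if c.IsThreeCycle then x c else 1
  is := h.congr fun c hc => if_pos hc
  junk c hc := if_neg hc

theorem Cond.mk'_val {x : Perm (Fin n) → Γ} (h : IsCond A x) {c : Perm (Fin n)} (hc : c.IsThreeCycle) :
    (Cond.mk' x h).val c = x c := if_pos hc

namespace Cond

/-- the images commute -/
def Orth (P R : Cond A) : Prop :=
  ∀ c d : Perm (Fin n), c.IsThreeCycle → d.IsThreeCycle → Commute (P.val c) (R.val d)

/-- `R` acts on `P` like the unconditional 3-cycles -/
def Le (P R : Cond A) : Prop := ∀ d : Perm (Fin n), d.IsThreeCycle → Acts P.val (R.val d) d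

/-- `R` is the sum of a part below `P` and a part orthogonal to `P` -/
def Cp (P R : Cond A) : Prop :=
  ∃ a b : Cond A, a.Le P ∧ b.Orth P ∧ ∀ c : Perm (Fin n), c.IsThreeCycle → R.val c = a.val c * b.val c

def top (A : Amb n Γ) : Cond A := mk' A.one ⟨A.pre, A.mem, fun d hd => A.pre.acts hd⟩

def bot (A : Amb n Γ) : Cond A where
  val _ := 1
  is := ⟨⟨by simp, by simp, by simp⟩, fun _ J _ _ _ => (A.D J).one_mem, fun d _ t _ => by simp⟩
  junk _ _ := rfl

theorem top_val {c : Perm (Fin n)} (hc : c.IsThreeCycle) : (top A).val c = A.one c := mk'_val _ hc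

theorem Orth.symm {P R : Cond A} (h : P.Orth R) : R.Orth P := fun c d hc hd => (h d c hd hc).symm

theorem le_refl (P : Cond A) : P.Le P := fun d hd => P.is.pre.acts hd

theorem le_top (P : Cond A) : P.Le (top A) := fun d hd => by rw [top_val hd]; exact P.is.eqv d hd

theorem bot_le (P : Cond A) : (bot A).Le P := fun d _ t _ => by simp [bot]

theorem bot_orth (P : Cond A) : (bot A).Orth P := fun c d _ _ => by simp [bot]

/-- disjoint supports -/
theorem commute_of_disjoint (P R : Cond A) {c d : Perm (Fin n)} (hc : c.IsThreeCycle)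
    (hd : d.IsThreeCycle) (h : Disjoint c.support d.support) : Commute (P.val c) (R.val d) := by
  obtain ⟨I, J, h1, h2, h3, h4, h5⟩ := exists_five A.hn h (by rw [hc.card_support]; omega)
    (by rw [hd.card_support]; omega)
  exact A.comm h3 (P.is.mem c I hc h1 h4.ge) (R.is.mem d J hd h2 h5.ge)

theorem exists_disjoint (hn : 10 ≤ n) {d : Perm (Fin n)} (hd : d.IsThreeCycle) :
    ∃ c : Perm (Fin n), c.IsThreeCycle ∧ Disjoint c.support d.support := by
  obtain ⟨a, b, ha, hb, ab⟩ := exists_fresh2 d.support (by rw [hd.card_support]; omega)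
  obtain ⟨e, he⟩ := exists_fresh (insert a (insert b d.support))
    (lt_of_le_of_lt ((Finset.card_insert_le _ _).trans (Nat.succ_le_succ (Finset.card_insert_le _ _)))
      (by rw [hd.card_support]; omega))
  simp only [Finset.mem_insert, not_or] at he
  refine ⟨cy a b e, cy_three ab (Ne.symm he.1) (Ne.symm he.2.1), ?_⟩
  rw [support_cy ab (Ne.symm he.1) (Ne.symm he.2.1)]
  simp only [Finset.disjoint_insert_left, Finset.disjoint_singleton_left]
  exact ⟨ha, hb, he.2.2⟩

/-- (TR) -/
theorem Le.orth {a r b : Cond A} (h : a.Le r) (hb : r.Orth b) : a.Orth b := by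
  intro c d hc hd
  obtain ⟨c0, hc0, hdis⟩ := exists_disjoint A.hn hd
  refine three_ind (by have := A.hn; simp; omega) (p := fun c => Commute (a.val c) (b.val d)) ?_ hc0 hc
    (commute_of_disjoint a b hc0 hd hdis)
  intro s t hs ht hp
  rw [← h t ht s hs]
  exact ((hb t d ht hd).mul_left hp).mul_left (hb t d ht hd).inv_left

theorem Le.commute_same {P R : Cond A} (h : P.Le R) {c : Perm (Fin n)} (hc : c.IsThreeCycle) :
    Commute (R.val c) (P.val c) := by
  have := h c hc c hc
  rw [mul_inv_cancel_right] at this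
  exact mul_inv_eq_iff_eq_mul.1 this

theorem Le.diff_commute {P R : Cond A} (h : P.Le R) {c d : Perm (Fin n)} (hc : c.IsThreeCycle)
    (hd : d.IsThreeCycle) : Commute (R.val c * (P.val c)⁻¹) (P.val d) := by
  have := (h c hc).mul (P.le_refl c hc).inv
  rw [mul_inv_cancel] at this
  exact this.commute hd

theorem Le.isCond_diff {P R : Cond A} (h : P.Le R) : IsCond A fun c => R.val c * (P.val c)⁻¹ := by
  have act : ∀ {g : Γ} {σ : Perm (Fin n)}, Acts P.val g σ → Acts R.val g σ →
      Acts (fun c => R.val c * (P.val c)⁻¹) g σ := fun h1 h2 t ht => by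
    show _ * (R.val t * (P.val t)⁻¹) * _ = R.val _ * (P.val _)⁻¹
    rw [← h1 t ht, ← h2 t ht]; group
  refine ⟨⟨fun c hc => ?_, fun c d hc hd => ?_, fun k a b c h1 h2 h3 h4 h5 h6 => ?_⟩,
    fun c J hc h1 h2 => (A.D J).mul_mem (R.is.mem c J hc h1 h2) ((A.D J).inv_mem (P.is.mem c J hc h1 h2)),
    fun d hd => act (P.is.eqv d hd) (R.is.eqv d hd)⟩
  · show R.val c⁻¹ * (P.val c⁻¹)⁻¹ = (R.val c * (P.val c)⁻¹)⁻¹
    rw [R.is.pre.inv c hc, P.is.pre.inv c hc, inv_inv, mul_inv_rev, inv_inv]
    exact (h.commute_same hc).inv_left.eq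
  · have e1 := act (h d hd) (R.le_refl d hd) c hc
    have e2 := (h.diff_commute hc hd).inv_right.eq
    simp only at e1 ⊢
    rw [← e1]
    calc _ = R.val d * ((P.val d)⁻¹ * (R.val c * (P.val c)⁻¹)) * P.val d * (R.val d)⁻¹ := by group
      _ = _ := by rw [← e2]; group
  · have t1 := cy_three h1 h2 h4
    have t2 := cy_three h2 h3 h6
    show R.val _ * (P.val _)⁻¹ * (R.val _ * (P.val _)⁻¹) = R.val _ * (P.val _)⁻¹
    rw [← R.is.pre.four k a b c h1 h2 h3 h4 h5 h6, ← P.is.pre.four k a b c h1 h2 h3 h4 h5 h6,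
      mul_assoc, ← (h.diff_commute t2 t1).inv_right.eq]
    group

/-- `R - P` for `P ≤ R` -/
def diff (R P : Cond A) (h : P.Le R) : Cond A := mk' _ h.isCond_diff

theorem diff_val {R P : Cond A} (h : P.Le R) {c : Perm (Fin n)} (hc : c.IsThreeCycle) :
    (diff R P h).val c = R.val c * (P.val c)⁻¹ := mk'_val _ hc

theorem diff_orth {R P : Cond A} (h : P.Le R) : (diff R P h).Orth P := fun c d hc hd => by
  rw [diff_val h hc]; exact h.diff_commute hc hd

theorem Orth.isCond_add {P R : Cond A} (h : P.Orth R) : IsCond A fun c => P.val c * R.val c := by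
  have act : ∀ {g : Γ} {σ : Perm (Fin n)}, Acts P.val g σ → Acts R.val g σ →
      Acts (fun c => P.val c * R.val c) g σ := fun h1 h2 t ht => by
    show _ * (P.val t * R.val t) * _ = P.val _ * R.val _
    rw [← h1 t ht, ← h2 t ht]; group
  refine ⟨⟨fun c hc => ?_, fun c d hc hd => ?_, fun k a b c h1 h2 h3 h4 h5 h6 => ?_⟩,
    fun c J hc h1 h2 => (A.D J).mul_mem (P.is.mem c J hc h1 h2) (R.is.mem c J hc h1 h2),
    fun d hd => act (P.is.eqv d hd) (R.is.eqv d hd)⟩
  · show P.val c⁻¹ * R.val c⁻¹ = (P.val c * R.val c)⁻¹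
    rw [R.is.pre.inv c hc, P.is.pre.inv c hc, (h c c hc hc).eq, mul_inv_rev]
  · have a1 : Acts P.val (P.val d * R.val d) d := by
      simpa using (P.le_refl d hd).mul (Acts.of_commute fun t ht => (h t d ht hd).symm)
    have a2 : Acts R.val (P.val d * R.val d) d := by
      simpa using (Acts.of_commute fun t ht => h d t hd ht).mul (R.le_refl d hd)
    exact act a1 a2 c hc
  · have t1 := cy_three h1 h2 h4
    have t2 := cy_three h2 h3 h6
    show P.val _ * R.val _ * (P.val _ * R.val _) = P.val _ * R.val _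
    rw [← R.is.pre.four k a b c h1 h2 h3 h4 h5 h6, ← P.is.pre.four k a b c h1 h2 h3 h4 h5 h6]
    exact ((h _ _ t2 t1).symm.mul_mul_mul_comm _ _)

/-- orthogonal sum -/
def add (P R : Cond A) (h : P.Orth R) : Cond A := mk' _ h.isCond_add

theorem add_val {P R : Cond A} (h : P.Orth R) {c : Perm (Fin n)} (hc : c.IsThreeCycle) :
    (add P R h).val c = P.val c * R.val c := mk'_val _ hc

/-- complement -/
def compl (P : Cond A) : Cond A := diff (top A) P P.le_top

theorem compl_val (P : Cond A) {c : Perm (Fin n)} (hc : c.IsThreeCycle) :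
    P.compl.val c = A.one c * (P.val c)⁻¹ := by rw [compl, diff_val _ hc, top_val hc]

theorem compl_orth (P : Cond A) : P.compl.Orth P := diff_orth _

/-- a condition on which a 3-cycle acts trivially is zero -/
theorem eq_bot_of_acts {P : Cond A} {s : Perm (Fin n)} (hs : s.IsThreeCycle) (h : Acts P.val 1 s) :
    P = bot A :=
  Cond.ext' fun c hc => P.is.pre.eq_one_of_acts (by have := A.hn; omega) hs h hc

open Classical in
/-- meet of compatible conditions -/
def inf (P R : Cond A) : Cond A := if h : P.Cp R then h.choose else bot A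

end Cond

/-- level translations -/
structure Tr (A : Amb n Γ) (G : Type*) [AddCommGroup G] where
  τ : (Fin n → G) → Γ
  τ_add : ∀ v w : Fin n → G, ∑ i, v i = 0 → ∑ i, w i = 0 → τ (v + w) = τ v * τ w
  norm : ∀ (t : Fin n → G) (J : Finset (Fin n)) (g : Γ), ∑ i, t i = 0 → g ∈ A.D J →
    τ t * g * (τ t)⁻¹ ∈ A.D J
  fix : ∀ (t : Fin n → G) (J : Finset (Fin n)) (g : Γ), ∑ i, t i = 0 → (∀ i ∈ J, t i = 0) →
    g ∈ A.D J → Commute (τ t) g
  perm : ∀ (c : Perm (Fin n)) (t : Fin n → G), c.IsThreeCycle → ∑ i, t i = 0 →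
    A.one c * τ t * (A.one c)⁻¹ = τ fun i => t (c⁻¹ i)

end Crest.Agent.R189.B1

end
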