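import Crest.Agent.R189.B1.Perm

/-!
# Row 189, block B1: the LIFT lemma (relations modulo a central subgroup can be made exact)

Recipe.  (1) If `u ∈ y s * Z`, the commutators `⁅u, v⁆` only depend on the classes mod `Z` (elements of `Z`
commute with all `y t`, hence with commutators of `y`'s; write `u = z * y s`).
(2) `y (cy k a c) * ⁅y (cy k a b), y (cy k c d)⁆⁻¹ ∈ Z` (the proof of `Pre.comm` mod `Z`).
(3) disjoint supports ⇒ `Commute (y s) (y t)`: conjugation by `y t` multiplies `y s'` by an element of `Z` when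
`s'`, `t` have disjoint supports (`hself`, `t * s' * t⁻¹ = s'`); write `s = cy k a c`, take `b, d` outside both
supports (`8 ≤ n`) and use (2): `y t` fixes the commutator and commutes with `Z`.
(4) `ψ k a c b d := ⁅y (cy k a b), y (cy k c d)⁆` does not depend on `b` (if `b, b', d` are distinct:
`y (cy k b a) * y (cy k a b') ≡ y (cy b a b')` by `hfour`, and this commutes with `y (cy k c d)` by (3)) nor on `d`
(symmetric); general `(b,d) → (b',d')`: pass through a pair of fresh levels (`10 ≤ n`).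
(5) conjugation by `y s` sends `ψ k a c b d` to `ψ (s k) (s a) (s c) (s b) (s d)` exactly ((1), `conj_cy`).
With `s = cy k a c` (which commutes with `ψ k a c`, by (2)): `ψ k a c = ψ a c k`.  Swapping: `ψ k c a d b = (ψ k a c b d)⁻¹`.
(6) define `x t` by `exists_cy` and choice; by (4), (5) `x (cy k a c) = ψ k a c b d` for every representation
(if `cy k a c = cy k' a' c'` then `k' ∈ {k,a,c}` by `support_cy`, rotate, then `a' = t k'`, `c' = t a'`).
`self`: `x d = z * y d`.  `four`: `x (cy k a c) = ⁅x (cy k a b), x (cy k c d)⁆` by (1), expand with `self`, `inv`: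
this is `x (cy a c d) * (x (cy k c d))⁻¹`.
-/

set_option autoImplicit false
set_option linter.unusedVariables false

namespace Crest.Agent.R189.B1

open Equiv C
open scoped commutatorElement

variable {n : ℕ} {Γ : Type*} [Group Γ]

/-- five distinct levels -/
structure LfD (k a c b d : Fin n) : Prop where
  ka : k ≠ a
  kb : k ≠ b
  kc : k ≠ c
  kd : k ≠ d
  ab : a ≠ b
  ac : a ≠ c
  ad : a ≠ d
  bc : b ≠ c
  bd : b ≠ d
  cd : c ≠ d

theorem LfD.map {k a c b d : Fin n} (h : LfD k a c b d) (s : Perm (Fin n)) :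
    LfD (s k) (s a) (s c) (s b) (s d) :=
  ⟨s.injective.ne h.ka, s.injective.ne h.kb, s.injective.ne h.kc, s.injective.ne h.kd, s.injective.ne h.ab,
    s.injective.ne h.ac, s.injective.ne h.ad, s.injective.ne h.bc, s.injective.ne h.bd, s.injective.ne h.cd⟩

theorem lf_fresh (hn : 10 ≤ n) (l : List (Fin n)) (hl : l.length ≤ 8) : ∃ a b, a ∉ l ∧ b ∉ l ∧ a ≠ b := by
  simpa using exists_fresh2 l.toFinset (lt_of_le_of_lt (Nat.succ_le_succ l.toFinset_card_le) (by omega))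

theorem lf_D (hn : 10 ≤ n) {k a c : Fin n} (ka : k ≠ a) (kc : k ≠ c) (ac : a ≠ c) (l : List (Fin n))
    (hl : l.length ≤ 5) : ∃ b d, LfD k a c b d ∧ b ∉ l ∧ d ∉ l := by
  obtain ⟨b, d, hb, hd, bd⟩ := lf_fresh hn (k :: a :: c :: l) (by simp only [List.length_cons]; omega)
  simp only [List.mem_cons, not_or] at hb hd
  exact ⟨b, d, ⟨ka, Ne.symm hb.1, kc, Ne.symm hd.1, Ne.symm hb.2.1, ac, Ne.symm hd.2.1, hb.2.2.1, bd,
    Ne.symm hd.2.2.1⟩, hb.2.2.2, hd.2.2.2⟩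

section central
variable {Q : Type*} [Group Q] {q : Γ →* Q} (hq : ∀ z, q z = 1 → ∀ g, Commute z g)
include hq

theorem lf_conj {u u' : Γ} (h : q u = q u') (g : Γ) : u * g * u⁻¹ = u' * g * u'⁻¹ := by
  have h1 := (hq (u'⁻¹ * u) (by rw [map_mul, map_inv, h, inv_mul_cancel]) g).eq
  calc u * g * u⁻¹ = u' * (u'⁻¹ * u * g) * u⁻¹ := by group
    _ = _ := by rw [h1]; group

theorem lf_comm {u u' v v' : Γ} (h : q u = q u') (h' : q v = q v') : ⁅u, v⁆ = ⁅u', v'⁆ := by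
  have h1 : ∀ {u u' : Γ} (v : Γ), q u = q u' → ⁅u, v⁆ = ⁅u', v⁆ := fun v h => by
    rw [commutatorElement_def, commutatorElement_def, lf_conj hq h]
  rw [h1 v h, ← commutatorElement_inv, h1 u' h', commutatorElement_inv]

theorem lf_main (hn : 10 ≤ n) (y : Perm (Fin n) → Γ) (hy : Pre fun t => q (y t)) :
    ∃ x : Perm (Fin n) → Γ, Pre x ∧ (∀ t : Perm (Fin n), t.IsThreeCycle → q (x t) = q (y t)) ∧
      ∀ k a c b d : Fin n, LfD k a c b d → x (cy k a c) = ⁅y (cy k a b), y (cy k c d)⁆ := by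
  classical
  obtain ⟨ψ, hψ⟩ : ∃ ψ : Fin n → Fin n → Fin n → Fin n → Fin n → Γ,
    ∀ k a c b d, ψ k a c b d = ⁅y (cy k a b), y (cy k c d)⁆ := ⟨_, fun _ _ _ _ _ => rfl⟩
  have h2 : ∀ {k a c b d}, LfD k a c b d → q (ψ k a c b d) = q (y (cy k a c)) := fun h => by
    rw [hψ, map_commutatorElement]
    exact (hy.comm h.ka h.kb h.kc h.kd h.ab h.ac h.ad h.bc h.bd h.cd).symm
  have h5 : ∀ {k a c b d}, LfD k a c b d → ∀ {s : Perm (Fin n)}, s.IsThreeCycle →
      y s * ψ k a c b d * (y s)⁻¹ = ψ (s k) (s a) (s c) (s b) (s d) := fun h s hs => by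
    rw [hψ, hψ, conjugate_commutatorElement]
    refine lf_comm hq ?_ ?_
    · rw [map_mul, map_mul, map_inv, ← conj_cy]
      exact hy.self _ _ (cy_three h.ka h.kb h.ab) hs
    · rw [map_mul, map_mul, map_inv, ← conj_cy]
      exact hy.self _ _ (cy_three h.kc h.kd h.cd) hs
  -- conjugation only sees the class
  have h6 : ∀ {u v g : Γ}, q u = q v → g * v * g⁻¹ = v → g * u * g⁻¹ = u := fun {u v g} h e => by
    have e1 := lf_conj hq h g⁻¹
    have e2 : v * g⁻¹ * v⁻¹ = g⁻¹ := by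
      calc v * g⁻¹ * v⁻¹ = g⁻¹ * (g * v * g⁻¹) * v⁻¹ := by group
        _ = g⁻¹ := by rw [e]; group
    rw [e2] at e1
    calc g * u * g⁻¹ = g * (u * g⁻¹ * u⁻¹) * u := by group
      _ = u := by rw [e1]; group
  have h3 : ∀ {k a c b d u v w}, LfD k a c b d → LfD k a c u v → LfD k a c u w → v ≠ w →
      ψ k a c b d = ψ k a c (cy u v w b) (cy u v w d) := fun {k a c b d u v w} h h' h'' vw => by
    have ht := cy_three h'.bd h''.bd vw
    have ek : cy u v w k = k := cy_of_ne h'.kb h'.kd h''.kd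
    have ea : cy u v w a = a := cy_of_ne h'.ab h'.ad h''.ad
    have ec : cy u v w c = c := cy_of_ne h'.bc.symm h'.cd h''.cd
    obtain ⟨b', d', hD, hb, hd⟩ := lf_D hn h.ka h.kc h.ac [u, v, w] (by simp)
    simp only [List.mem_cons, List.not_mem_nil, or_false, not_or] at hb hd
    have e1 := h5 hD ht
    have e2 := h5 h ht
    rw [ek, ea, ec] at e1 e2
    rw [cy_of_ne hb.1 hb.2.1 hb.2.2, cy_of_ne hd.1 hd.2.1 hd.2.2] at e1
    rw [← e2, h6 ((h2 h).trans (h2 hD).symm) e1]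
  have h4' : ∀ {k a c b d b' d'}, LfD k a c b d → LfD k a c b' d' → b' ∉ [b, d] → d' ∉ [b, d] →
      ψ k a c b d = ψ k a c b' d' := fun {k a c b d b' d'} h h' hb hd => by
    simp only [List.mem_cons, List.not_mem_nil, or_false, not_or] at hb hd
    obtain ⟨e, e', hD, he, -⟩ := lf_D hn h.ka h.kc h.ac [b, d, b', d'] (by simp)
    simp only [List.mem_cons, List.not_mem_nil, or_false, not_or] at he
    have h1 : LfD k a c b' d := ⟨h.ka, h'.kb, h.kc, h.kd, h'.ab, h.ac, h.ad, h'.bc, hb.2, h.cd⟩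
    have e1 := h3 h (u := b) (v := b') (w := e)
      ⟨h.ka, h.kb, h.kc, h'.kb, h.ab, h.ac, h'.ab, h.bc, Ne.symm hb.1, h'.bc.symm⟩
      ⟨h.ka, h.kb, h.kc, hD.kb, h.ab, h.ac, hD.ab, h.bc, Ne.symm he.1, hD.bc.symm⟩ (Ne.symm he.2.2.1)
    have e2 := h3 h1 (u := d) (v := d') (w := e)
      ⟨h.ka, h.kd, h.kc, h'.kd, h.ad, h.ac, h'.ad, h.cd.symm, Ne.symm hd.2, h'.cd⟩
      ⟨h.ka, h.kd, h.kc, hD.kb, h.ad, h.ac, hD.ab, h.cd.symm, Ne.symm he.2.1, hD.bc.symm⟩ (Ne.symm he.2.2.2)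
    rw [cy_fst (Ne.symm hb.1) (Ne.symm he.1), cy_of_ne h.bd.symm (Ne.symm hb.2) (Ne.symm he.2.1)] at e1
    rw [cy_fst (Ne.symm hd.2) (Ne.symm he.2.1), cy_of_ne hb.2 h'.bd (Ne.symm he.2.2.1)] at e2
    exact e1.trans e2
  have h4 : ∀ {k a c b d b' d'}, LfD k a c b d → LfD k a c b' d' → ψ k a c b d = ψ k a c b' d' :=
    fun {k a c b d b' d'} h h' => by
      obtain ⟨u, v, hD, hu, hv⟩ := lf_D hn h.ka h.kc h.ac [b, d, b', d'] (by simp)
      simp only [List.mem_cons, List.not_mem_nil, or_false, not_or] at hu hv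
      rw [h4' h hD (by simp [hu]) (by simp [hv]), h4' h' hD (by simp [hu]) (by simp [hv])]
  have hr : ∀ {k a c b d}, LfD k a c b d → LfD a c k b d ∧ cy k a c = cy a c k ∧ ψ k a c b d = ψ a c k b d :=
    fun {k a c b d} h => by
      refine ⟨⟨h.ac, h.ab, h.ka.symm, h.ad, h.bc.symm, h.kc.symm, h.cd, h.kb.symm, h.bd, h.kd⟩,
        cy_rot h.ka h.kc h.ac, ?_⟩
      have e := h5 h (cy_three h.ka h.kc h.ac)
      rwa [cy_fst h.ka h.kc, cy_snd h.kc h.ac, cy_thd h.ka h.kc h.ac, cy_of_ne h.kb.symm h.ab.symm h.bc,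
        cy_of_ne h.kd.symm h.ad.symm h.cd.symm, h6 (h2 h) (by group)] at e
  have hu0 : ∀ {k a c b d a' c' b' d'}, LfD k a c b d → LfD k a' c' b' d' → cy k a c = cy k a' c' →
      ψ k a c b d = ψ k a' c' b' d' := fun {k a c b d a' c' b' d'} h h' e => by
    obtain rfl : a = a' := by rw [← cy_fst h.ka h.kc, e, cy_fst h'.ka h'.kc]
    obtain rfl : c = c' := by rw [← cy_snd h.kc h.ac, e, cy_snd h'.kc h'.ac]
    exact h4 h h'
  have hu : ∀ {k a c b d k' a' c' b' d'}, LfD k a c b d → LfD k' a' c' b' d' → cy k a c = cy k' a' c' →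
      ψ k a c b d = ψ k' a' c' b' d' := fun {k a c b d k' a' c' b' d'} h h' e => by
    have h1 := hr h
    have h2 := hr h1.1
    rcases cy_supp (a := k) (b := a) (c := c) (i := k') (by rw [e, cy_fst h'.ka h'.kc]; exact h'.ka.symm) with
      rfl | rfl | rfl
    · exact hu0 h h' e
    · exact h1.2.2.trans (hu0 h1.1 h' (h1.2.1.symm.trans e))
    · exact h1.2.2.trans (h2.2.2.trans (hu0 h2.1 h' (h2.2.1.symm.trans (h1.2.1.symm.trans e))))
  obtain ⟨x, hx⟩ : ∃ x : Perm (Fin n) → Γ, ∀ {k a c b d}, LfD k a c b d → x (cy k a c) = ψ k a c b d := by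
    refine ⟨fun t => if h : ∃ g, ∃ k a c b d, LfD k a c b d ∧ cy k a c = t ∧ g = ψ k a c b d then h.choose else 1,
      fun {k a c b d} h => ?_⟩
    have h' : ∃ g, ∃ k' a' c' b' d', LfD k' a' c' b' d' ∧ cy k' a' c' = cy k a c ∧ g = ψ k' a' c' b' d' :=
      ⟨_, k, a, c, b, d, h, rfl, rfl⟩
    obtain ⟨k', a', c', b', d', h1, h2, h3⟩ := h'.choose_spec
    exact (dif_pos h').trans (h3.trans (hu h1 h h2))
  have rep : ∀ {t : Perm (Fin n)}, t.IsThreeCycle → ∃ k a c b d, LfD k a c b d ∧ t = cy k a c := fun ht => by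
    obtain ⟨k, a, c, ka, kc, ac, rfl⟩ := exists_cy ht
    obtain ⟨b, d, hD, -⟩ := lf_D hn ka kc ac [] (by simp)
    exact ⟨k, a, c, b, d, hD, rfl⟩
  have hxy : ∀ t : Perm (Fin n), t.IsThreeCycle → q (x t) = q (y t) := fun t ht => by
    obtain ⟨k, a, c, b, d, h, rfl⟩ := rep ht
    rw [hx h, h2 h]
  have hself : ∀ c d : Perm (Fin n), c.IsThreeCycle → d.IsThreeCycle →
      x d * x c * (x d)⁻¹ = x (d * c * d⁻¹) := fun t s ht hs => by
    obtain ⟨k, a, c, b, d, h, rfl⟩ := rep ht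
    rw [lf_conj hq (hxy s hs), hx h, h5 h hs, conj_cy, hx (h.map s)]
  refine ⟨x, ⟨fun t ht => ?_, hself, fun k a c d ka kc kd ac ad cd => ?_⟩, hxy, fun k a c b d h => (hx h).trans (hψ ..)⟩
  · obtain ⟨k, a, c, b, d, h, rfl⟩ := rep ht
    rw [cy_inv h.ka h.kc h.ac, hx h, hx (b := d) (d := b) ⟨h.kc, h.kd, h.ka, h.kb, h.cd, h.ac.symm, h.bc.symm, h.ad.symm,
      h.bd.symm, h.ab⟩, hψ, hψ, commutatorElement_inv]
  · obtain ⟨b, b', hD, hb, -⟩ := lf_D hn ka kc ac [d] (by simp)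
    have h : LfD k a c b d := ⟨ka, hD.kb, kc, kd, hD.ab, ac, ad, hD.bc, by simpa using hb, cd⟩
    have t1 := cy_three h.ka h.kb h.ab
    have t2 := cy_three h.kc h.kd h.cd
    rw [hx h, hψ, lf_comm hq (hxy _ t1).symm (hxy _ t2).symm, commutatorElement_def, hself _ _ t2 t1, conj_cy,
      cy_fst h.ka h.kb, cy_of_ne h.kc.symm h.ac.symm h.bc.symm, cy_of_ne h.kd.symm h.ad.symm h.bd.symm,
      inv_mul_cancel_right]

end central

theorem lift (hn : 10 ≤ n) (y : Perm (Fin n) → Γ) (Z : Subgroup Γ)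
    (hZ : ∀ z ∈ Z, ∀ t : Perm (Fin n), t.IsThreeCycle → Commute z (y t))
    (hinv : ∀ c : Perm (Fin n), c.IsThreeCycle → y c⁻¹ * y c ∈ Z)
    (hself : ∀ c d : Perm (Fin n), c.IsThreeCycle → d.IsThreeCycle →
      y d * y c * (y d)⁻¹ * (y (d * c * d⁻¹))⁻¹ ∈ Z)
    (hfour : ∀ k a b c : Fin n, k ≠ a → k ≠ b → k ≠ c → a ≠ b → a ≠ c → b ≠ c →
      y (cy k a b) * y (cy k b c) * (y (cy a b c))⁻¹ ∈ Z) :
    ∃ x : Perm (Fin n) → Γ, Pre x ∧ (∀ t : Perm (Fin n), t.IsThreeCycle → x t * (y t)⁻¹ ∈ Z) ∧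
      ∀ k a b c d : Fin n, k ≠ a → k ≠ b → k ≠ c → k ≠ d → a ≠ b → a ≠ c → a ≠ d → b ≠ c → b ≠ d →
        c ≠ d → x (cy k a c) = ⁅y (cy k a b), y (cy k c d)⁆ := by
  classical
  let H : Subgroup Γ := Subgroup.centralizer (Z : Set Γ)
  have hH : ∀ t : Perm (Fin n), t.IsThreeCycle → y t ∈ H := fun t ht =>
    Subgroup.mem_centralizer_iff.2 fun z hz => (hZ z hz t ht).eq
  have hc : ∀ z ∈ Z.subgroupOf H, ∀ g : H, Commute z g := fun z hz g =>
    Subtype.ext (Subgroup.mem_centralizer_iff.1 g.2 z (Subgroup.mem_subgroupOf.1 hz))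
  have : (Z.subgroupOf H).Normal := ⟨fun z hz g => by rwa [← (hc z hz g).eq, mul_inv_cancel_right]⟩
  obtain ⟨y', hy'⟩ : ∃ y' : Perm (Fin n) → H, ∀ t : Perm (Fin n), t.IsThreeCycle → (y' t : Γ) = y t :=
    ⟨fun t => if h : t.IsThreeCycle then ⟨y t, hH t h⟩ else 1, fun t ht => by simp only [dif_pos ht]⟩
  have hq : ∀ u v : H, QuotientGroup.mk' (Z.subgroupOf H) u = QuotientGroup.mk' (Z.subgroupOf H) v ↔
      (u : Γ) * (v : Γ)⁻¹ ∈ Z := fun u v => by
    rw [← mul_inv_eq_one, ← map_inv, ← map_mul, QuotientGroup.mk'_apply, QuotientGroup.eq_one_iff,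
      Subgroup.mem_subgroupOf]
    rfl
  obtain ⟨x, h1, h2, h3⟩ := lf_main (q := QuotientGroup.mk' (Z.subgroupOf H))
    (fun z hz => hc z ((QuotientGroup.eq_one_iff z).1 hz)) hn y'
    ⟨fun c hc => by
      rw [← map_inv, hq, Subgroup.coe_inv, inv_inv, hy' _ hc, hy' _ hc.inv]
      exact hinv c hc,
    fun c d hc hd => by
      rw [← map_inv, ← map_mul, ← map_mul, hq, Subgroup.coe_mul, Subgroup.coe_mul, Subgroup.coe_inv, hy' _ hc,
        hy' _ hd, hy' _ (three_conj hc d)]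
      exact hself c d hc hd,
    fun k a b c ka kb kc ab ac bc => by
      rw [← map_mul, hq, Subgroup.coe_mul, hy' _ (cy_three ka kb ab), hy' _ (cy_three kb kc bc),
        hy' _ (cy_three ab ac bc)]
      exact hfour k a b c ka kb kc ab ac bc⟩
  refine ⟨fun t => x t, ⟨fun c hc => congrArg Subtype.val (h1.inv c hc),
    fun c d hc hd => congrArg Subtype.val (h1.self c d hc hd),
    fun k a b c ka kb kc ab ac bc => congrArg Subtype.val (h1.four k a b c ka kb kc ab ac bc)⟩,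
    fun t ht => hy' t ht ▸ (hq _ _).1 (h2 t ht), fun k a b c d ka kb kc kd ab ac ad bc bd cd => ?_⟩
  rw [← hy' _ (cy_three ka kb ab), ← hy' _ (cy_three kc kd cd)]
  exact congrArg Subtype.val (h3 k a c b d ⟨ka, kb, kc, kd, ab, ac, ad, bc, bd, cd⟩)

end Crest.Agent.R189.B1
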