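import Crest.Agent.R189.B1.Defs
import Crest.Agent.R189.B1.Lift

/-!
# Row 189, block B1: the conditions form a coherent orthomodular poset
-/

set_option autoImplicit false
set_option linter.unusedVariables false

noncomputable section

namespace Crest.Agent.R189.B1

open Equiv C
open scoped commutatorElement

variable {n : ℕ} {Γ : Type*} [Group Γ] {A : Amb n Γ}

theorem exists_three (hn : 10 ≤ n) : ∃ c : Perm (Fin n), c.IsThreeCycle :=
  ⟨cy ⟨0, by omega⟩ ⟨1, by omega⟩ ⟨2, by omega⟩, cy_three (by simp) (by simp) (by simp)⟩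

theorem comm_mul_of_commute {a b a' b' : Γ} (h1 : Commute a b') (h2 : Commute b a') (h3 : Commute a b)
    (h4 : Commute a' b') : ⁅a * b, a' * b'⁆ = ⁅a, a'⁆ * ⁅b, b'⁆ := by
  have e1 : a * b * (a' * b') = a * a' * (b * b') := h2.mul_mul_mul_comm _ _
  have e2 : (a * b)⁻¹ * (a' * b')⁻¹ = a⁻¹ * a'⁻¹ * (b⁻¹ * b'⁻¹) := by
    rw [h3.eq, h4.eq, mul_inv_rev, mul_inv_rev]
    exact h2.inv_inv.mul_mul_mul_comm _ _
  have e3 : Commute (b * b') (a⁻¹ * a'⁻¹) :=
    ((h3.symm.inv_right).mul_right h2.inv_right).mul_left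
      ((h1.symm.inv_right).mul_right h4.symm.inv_right)
  calc ⁅a * b, a' * b'⁆ = a * b * (a' * b') * ((a * b)⁻¹ * (a' * b')⁻¹) := by
        rw [commutatorElement_def]; group
    _ = a * a' * (a⁻¹ * a'⁻¹) * (b * b' * (b⁻¹ * b'⁻¹)) := by
        rw [e1, e2]; exact e3.mul_mul_mul_comm _ _
    _ = _ := by rw [commutatorElement_def, commutatorElement_def]; group

namespace Cond

variable {P R S a b x : Cond A}

theorem le_of_mul_l (h : a.Orth b) (e : ∀ c : Perm (Fin n), c.IsThreeCycle → R.val c = a.val c * b.val c) :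
    a.Le R := fun d hd => by
  rw [e d hd]
  simpa using (a.le_refl d hd).mul (Acts.of_commute fun t ht => (h t d ht hd).symm)

theorem mul_comm' (h : a.Orth b) (e : ∀ c : Perm (Fin n), c.IsThreeCycle → R.val c = a.val c * b.val c)
    (c : Perm (Fin n)) (hc : c.IsThreeCycle) : R.val c = b.val c * a.val c := by
  rw [e c hc, (h c c hc hc).eq]

theorem le_of_mul_r (h : a.Orth b) (e : ∀ c : Perm (Fin n), c.IsThreeCycle → R.val c = a.val c * b.val c) :
    b.Le R := le_of_mul_l h.symm (mul_comm' h e)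

theorem orth_of_mul (e : ∀ c : Perm (Fin n), c.IsThreeCycle → R.val c = a.val c * b.val c)
    (ha : x.Orth a) (hb : x.Orth b) : x.Orth R := fun c d hc hd => by
  rw [e d hd]; exact (ha c d hc hd).mul_right (hb c d hc hd)

theorem diff_mul (h : P.Le R) (c : Perm (Fin n)) (hc : c.IsThreeCycle) :
    R.val c = (diff R P h).val c * P.val c := by rw [diff_val h hc]; group

theorem mul_diff (h : P.Le R) (c : Perm (Fin n)) (hc : c.IsThreeCycle) :
    R.val c = P.val c * (diff R P h).val c := mul_comm' (diff_orth h) (diff_mul h) c hc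

theorem diff_le (h : P.Le R) : (diff R P h).Le R := le_of_mul_l (diff_orth h) (diff_mul h)

theorem le_trans' (h1 : P.Le R) (h2 : R.Le S) : P.Le S := fun d hd => by
  rw [diff_mul h2 d hd]
  have := h1.orth (diff_orth h2).symm
  simpa using (Acts.of_commute fun t ht => (this t d ht hd).symm).mul (h1 d hd)

theorem eq_bot_of_le_of_orth (h1 : x.Le P) (h2 : x.Orth P) : x = bot A := by
  obtain ⟨s, hs⟩ := exists_three A.hn
  refine eq_bot_of_acts hs ?_
  simpa using (h1 s hs).mul (Acts.of_commute fun t ht => (h2 t s ht hs).symm).inv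

theorem le_antisymm' (h1 : P.Le R) (h2 : R.Le P) : P = R := by
  have := eq_bot_of_le_of_orth (le_trans' (diff_le h1) h2) (diff_orth h1)
  refine Cond.ext' fun c hc => ?_
  rw [diff_mul h1 c hc, this]; simp [bot]

theorem le_iff_orth_compl : P.Le R ↔ P.Orth R.compl := by
  refine ⟨fun h => h.orth R.compl_orth.symm, fun h d hd => ?_⟩
  have e : R.val d = (R.compl.val d)⁻¹ * A.one d := by rw [compl_val _ hd]; group
  rw [e]
  simpa using (Acts.of_commute fun t ht => (h t d ht hd).symm).inv.mul (P.is.eqv d hd)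

theorem compl_compl (P : Cond A) : P.compl.compl = P := Cond.ext' fun c hc => by
  have := P.le_top.commute_same hc
  rw [top_val hc] at this
  rw [compl_val _ hc, compl_val _ hc, mul_inv_rev, inv_inv, ← mul_assoc, this.eq, mul_inv_cancel_right]

theorem le_compl_iff_orth : P.Le R.compl ↔ P.Orth R := by rw [le_iff_orth_compl, compl_compl]

theorem compl_anti (h : P.Le R) : R.compl.Le P.compl :=
  le_compl_iff_orth.2 (le_iff_orth_compl.1 h).symm

theorem le_of_split (ha : a.Le P) (hb : b.Orth P)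
    (e : ∀ c : Perm (Fin n), c.IsThreeCycle → R.val c = a.val c * b.val c) (h1 : x.Le P) (h2 : x.Le R) :
    x.Le a := fun d hd => by
  have e' : a.val d = R.val d * (b.val d)⁻¹ := by rw [e d hd]; group
  have := h1.orth hb.symm
  rw [e']
  simpa using (h2 d hd).mul (Acts.of_commute fun t ht => (this t d ht hd).symm).inv

theorem Cp.spec (h : P.Cp R) : ∃ b : Cond A, (P.inf R).Le P ∧ b.Orth P ∧
    ∀ c : Perm (Fin n), c.IsThreeCycle → R.val c = (P.inf R).val c * b.val c := by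
  have : P.inf R = h.choose := dif_pos h
  rw [this]; exact h.choose_spec

theorem Cp.inf_le_l (h : P.Cp R) : (P.inf R).Le P := h.spec.choose_spec.1

theorem Cp.inf_le_r (h : P.Cp R) : (P.inf R).Le R := by
  obtain ⟨b, h1, h2, h3⟩ := h.spec
  exact le_of_mul_l (h1.orth h2.symm) h3

theorem Cp.le_inf (h : P.Cp R) (h1 : x.Le P) (h2 : x.Le R) : x.Le (P.inf R) := by
  obtain ⟨b, h3, h4, h5⟩ := h.spec
  exact le_of_split h3 h4 h5 h1 h2

theorem Cp.symm (h : P.Cp R) : R.Cp P := by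
  obtain ⟨a, b, h1, h2, h3⟩ := h
  exact ⟨a, diff P a h1, le_of_mul_l (h1.orth h2.symm) h3,
    orth_of_mul h3 (diff_orth h1) ((diff_le h1).orth h2.symm), mul_diff h1⟩

theorem Cp.of_le (h : P.Le R) : P.Cp R := ⟨P, diff R P h, P.le_refl, diff_orth h, mul_diff h⟩

theorem Cp.compl_l (h : P.Cp R) : P.compl.Cp R := by
  obtain ⟨a, b, h1, h2, h3⟩ := h
  exact ⟨b, a, le_compl_iff_orth.2 h2, le_iff_orth_compl.1 h1, mul_comm' (h1.orth h2.symm) h3⟩

theorem Cp.compl (h : P.Cp R) : P.Cp R.compl := h.symm.compl_l.symm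

theorem Cp.inf_eq (h : P.Cp R) (h1 : x.Le P) (h2 : x.Le R) (h3 : ∀ y : Cond A, y.Le P → y.Le R → y.Le x) :
    P.inf R = x := le_antisymm' (h3 _ h.inf_le_l h.inf_le_r) (h.le_inf h1 h2)

theorem sup_of_mul (h : a.Orth b) (e : ∀ c : Perm (Fin n), c.IsThreeCycle → R.val c = a.val c * b.val c) :
    (a.compl.inf b.compl).compl = R := by
  have hc : a.compl.Cp b.compl := (Cp.of_le (le_compl_iff_orth.2 h)).compl_l
  rw [hc.inf_eq (compl_anti (le_of_mul_l h e)) (compl_anti (le_of_mul_r h e)) fun y h1 h2 =>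
    le_compl_iff_orth.2 (orth_of_mul e (le_compl_iff_orth.1 h1) (le_compl_iff_orth.1 h2)), compl_compl]

theorem Cp.split_val (h : P.Cp R) : (P.inf R).Orth (P.inf R.compl) ∧ ∀ c : Perm (Fin n), c.IsThreeCycle →
    P.val c = (P.inf R).val c * (P.inf R.compl).val c := by
  obtain ⟨u, v, h1, h2, h3⟩ := h.symm
  have huv := h1.orth h2.symm
  have e1 : P.inf R = u := h.inf_eq (le_of_mul_l huv h3) h1 fun y y1 y2 => le_of_split h1 h2 h3 y2 y1
  have e2 : P.inf R.compl = v := h.compl.inf_eq (le_of_mul_r huv h3) (le_compl_iff_orth.2 h2)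
    fun y y1 y2 => le_of_split (le_compl_iff_orth.2 h2) (le_iff_orth_compl.1 h1) (mul_comm' huv h3) y2 y1
  rw [e1, e2]; exact ⟨huv, h3⟩

theorem Cp.split (h : P.Cp R) : P = ((P.inf R).compl.inf (P.inf R.compl).compl).compl :=
  (sup_of_mul h.split_val.1 h.split_val.2).symm

/-- the meet is a commutator -/
theorem Cp.inf_cy (h : P.Cp R) {k a b c d : Fin n} (ka : k ≠ a) (kb : k ≠ b) (kc : k ≠ c)
    (kd : k ≠ d) (ab : a ≠ b) (ac : a ≠ c) (ad : a ≠ d) (bc : b ≠ c) (bd : b ≠ d) (cd : c ≠ d) :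
    (P.inf R).val (cy k a c) = ⁅P.val (cy k a b), R.val (cy k c d)⁆ := by
  obtain ⟨v, h1, h2, h3⟩ := h.spec
  have t1 := cy_three ka kb ab
  have t2 := cy_three kc kd cd
  have o1 := h1.orth h2.symm
  have o2 := diff_orth h1
  have o3 := (diff_le h1).orth h2.symm
  rw [mul_diff h1 _ t1, h3 _ t2, comm_mul_of_commute (o1 _ _ t1 t2) (o2 _ _ t1 t2) (o2 _ _ t1 t1).symm
    (o1 _ _ t2 t2), commutatorElement_eq_one_iff_commute.2 (o3 _ _ t1 t2), mul_one]
  exact (P.inf R).is.pre.comm ka kb kc kd ab ac ad bc bd cd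

/-- projection of a condition to one factor of a central product -/
theorem proj (M : Cond A) (N1 N0 : Subgroup Γ) (hc : ∀ u ∈ N1, ∀ v ∈ N0, Commute u v)
    (n1 : ∀ d : Perm (Fin n), d.IsThreeCycle → ∀ u ∈ N1, A.one d * u * (A.one d)⁻¹ ∈ N1)
    (n0 : ∀ d : Perm (Fin n), d.IsThreeCycle → ∀ u ∈ N0, A.one d * u * (A.one d)⁻¹ ∈ N0)
    (h : ∀ (t : Perm (Fin n)) (J : Finset (Fin n)), t.IsThreeCycle → t.support ⊆ J → 5 ≤ J.card →
      ∃ u, u ∈ A.D J ∧ u ∈ N1 ∧ u⁻¹ * M.val t ∈ N0) :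
    ∃ a : Cond A, ∀ t : Perm (Fin n), t.IsThreeCycle → a.val t ∈ N1 ∧ (a.val t)⁻¹ * M.val t ∈ N0 := by
  classical
  have hn := A.hn
  let Rl : Γ → Γ → Prop := fun u m => u ∈ N1 ∧ u⁻¹ * m ∈ N0
  have rmul : ∀ {u m u' m'}, Rl u m → Rl u' m' → Rl (u * u') (m * m') := by
    intro u m u' m' h1 h2
    refine ⟨N1.mul_mem h1.1 h2.1, ?_⟩
    have : (u * u')⁻¹ * (m * m') = (u⁻¹ * m) * (u'⁻¹ * m') := by
      rw [← mul_assoc (u⁻¹ * m), ← (hc _ (N1.inv_mem h2.1) _ h1.2).eq]; group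
    rw [this]; exact N0.mul_mem h1.2 h2.2
  have rinv : ∀ {u m}, Rl u m → Rl u⁻¹ m⁻¹ := by
    intro u m h1
    refine ⟨N1.inv_mem h1.1, ?_⟩
    have : u⁻¹⁻¹ * m⁻¹ = (u⁻¹ * m)⁻¹ := by
      have e := (hc _ h1.1 _ (N0.inv_mem h1.2)).eq
      calc _ = u * (u⁻¹ * m)⁻¹ * u⁻¹ := by group
        _ = _ := by rw [e]; group
    rw [this]; exact N0.inv_mem h1.2
  have rone : ∀ {u m}, Rl u m → m = 1 → u ∈ N1 ⊓ N0 := by
    intro u m h1 hm
    subst hm
    exact ⟨h1.1, by simpa using h1.2⟩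
  have rconj : ∀ {u m} {d : Perm (Fin n)}, d.IsThreeCycle → Rl u m →
      Rl (A.one d * u * (A.one d)⁻¹) (A.one d * m * (A.one d)⁻¹) := by
    intro u m d hd h1
    refine ⟨n1 d hd _ h1.1, ?_⟩
    have : (A.one d * u * (A.one d)⁻¹)⁻¹ * (A.one d * m * (A.one d)⁻¹) =
      A.one d * (u⁻¹ * m) * (A.one d)⁻¹ := by group
    rw [this]; exact n0 d hd _ h1.2
  have rcomm : ∀ {u u' m v v' m'}, Rl u m → Rl u' m → Rl v m' → Rl v' m' → ⁅u', v'⁆ = ⁅u, v⁆ := by
    intro u u' m v v' m' h1 h2 h3 h4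
    have z1 := rone (rmul (rinv h1) h2) (by simp)
    have z2 := rone (rmul (rinv h3) h4) (by simp)
    have e1 : u' = u * (u⁻¹ * u') := by group
    have e2 : v' = v * (v⁻¹ * v') := by group
    rw [e1, e2, comm_mul_of_commute (hc _ h1.1 _ z2.2) (hc _ h3.1 _ z1.2).symm (hc _ h1.1 _ z1.2)
      (hc _ h3.1 _ z2.2), commutatorElement_eq_one_iff_commute.2 (hc _ z1.1 _ z2.2), mul_one]
  have hy : ∀ t : Perm (Fin n), ∃ u, t.IsThreeCycle → Rl u (M.val t) := fun t => by
    by_cases ht : t.IsThreeCycle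
    · obtain ⟨u, -, h1⟩ := h t Finset.univ ht (Finset.subset_univ _) (by simp; omega)
      exact ⟨u, fun _ => h1⟩
    · exact ⟨1, fun h => absurd h ht⟩
  choose y hy using hy
  obtain ⟨x, xpre, xy, xf⟩ := lift hn y (N1 ⊓ N0) (fun z hz t ht => (hc _ (hy t ht).1 _ hz.2).symm)
    (fun c hc' => rone (rmul (hy _ hc'.inv) (hy _ hc')) (by rw [M.is.pre.inv c hc']; simp))
    (fun c d hc' hd => rone (rmul (rmul (rmul (hy _ hd) (hy _ hc')) (rinv (hy _ hd)))
      (rinv (hy _ (three_conj hc' d)))) (by rw [M.is.pre.self c d hc' hd]; simp))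
    (fun k a b c h1 h2 h3 h4 h5 h6 => rone (rmul (rmul (hy _ (cy_three h1 h2 h4))
      (hy _ (cy_three h2 h3 h6))) (rinv (hy _ (cy_three h4 h5 h6))))
      (by rw [M.is.pre.four k a b c h1 h2 h3 h4 h5 h6]; simp))
  have key : ∀ (t : Perm (Fin n)) (J : Finset (Fin n)), t.IsThreeCycle → t.support ⊆ J → 5 ≤ J.card →
      ∃ k a b c d : Fin n, k ≠ a ∧ k ≠ b ∧ k ≠ c ∧ k ≠ d ∧ a ≠ b ∧ a ≠ c ∧ a ≠ d ∧ b ≠ c ∧ b ≠ d ∧ c ≠ d ∧
        t = cy k a c ∧ (cy k a b).support ⊆ J ∧ (cy k c d).support ⊆ J := by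
    intro t J ht h1 h2
    obtain ⟨k, a, c, ka, kc, ac, rfl⟩ := exists_cy ht
    obtain ⟨b, d, bJ, dJ, hb, hd, bd⟩ := exists_two_in (J := J) (F := {k, a, c})
      (le_trans (Nat.add_le_add_right Finset.card_le_three 2) h2)
    simp only [Finset.mem_insert, Finset.mem_singleton, not_or] at hb hd
    rw [support_cy ka kc ac] at h1
    simp only [Finset.insert_subset_iff, Finset.singleton_subset_iff] at h1
    refine ⟨k, a, b, c, d, ka, Ne.symm hb.1, kc, Ne.symm hd.1, Ne.symm hb.2.1, ac, Ne.symm hd.2.1, hb.2.2,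
      bd, Ne.symm hd.2.2, rfl, ?_, ?_⟩
    · rw [support_cy ka (Ne.symm hb.1) (Ne.symm hb.2.1)]
      simp only [Finset.insert_subset_iff, Finset.singleton_subset_iff]
      exact ⟨h1.1, h1.2.1, bJ⟩
    · rw [support_cy kc (Ne.symm hd.1) (Ne.symm hd.2.2)]
      simp only [Finset.insert_subset_iff, Finset.singleton_subset_iff]
      exact ⟨h1.1, h1.2.2, dJ⟩
  have xc : IsCond A x := by
    refine ⟨xpre, fun t J ht h1 h2 => ?_, fun s hs t ht => ?_⟩
    · obtain ⟨k, a, b, c, d, ka, kb, kc, kd, ab, ac, ad, bc, bd, cd, rfl, s1, s2⟩ := key t J ht h1 h2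
      obtain ⟨u, u1, u2⟩ := h _ J (cy_three ka kb ab) s1 h2
      obtain ⟨v, v1, v2⟩ := h _ J (cy_three kc kd cd) s2 h2
      rw [xf k a b c d ka kb kc kd ab ac ad bc bd cd,
        rcomm u2 (hy _ (cy_three ka kb ab)) v2 (hy _ (cy_three kc kd cd)), commutatorElement_def]
      exact (A.D J).mul_mem ((A.D J).mul_mem ((A.D J).mul_mem u1 v1) ((A.D J).inv_mem u1))
        ((A.D J).inv_mem v1)
    · obtain ⟨k, a, b, c, d, ka, kb, kc, kd, ab, ac, ad, bc, bd, cd, rfl, -, -⟩ :=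
        key t Finset.univ ht (Finset.subset_univ _) (by simp; omega)
      have i := s.injective
      have r1 := rconj hs (hy _ (cy_three ka kb ab))
      have r2 := rconj hs (hy _ (cy_three kc kd cd))
      rw [M.is.eqv s hs _ (cy_three ka kb ab), conj_cy] at r1
      rw [M.is.eqv s hs _ (cy_three kc kd cd), conj_cy] at r2
      rw [conj_cy, xf k a b c d ka kb kc kd ab ac ad bc bd cd,
        xf (s k) (s a) (s b) (s c) (s d) (i.ne ka) (i.ne kb) (i.ne kc) (i.ne kd) (i.ne ab) (i.ne ac)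
          (i.ne ad) (i.ne bc) (i.ne bd) (i.ne cd),
        rcomm r1 (hy _ (cy_three (i.ne ka) (i.ne kb) (i.ne ab))) r2
          (hy _ (cy_three (i.ne kc) (i.ne kd) (i.ne cd))), commutatorElement_def, commutatorElement_def]
      group
  refine ⟨mk' x xc, fun t ht => ?_⟩
  rw [mk'_val _ ht]
  have z := xy t ht
  have := rmul (u := x t * (y t)⁻¹) (m := 1) ⟨z.1, by simpa using N0.inv_mem z.2⟩ (hy t ht)
  simpa using this

/-- the subgroup generated by the conditions below `P` -/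
def N1 (P : Cond A) : Subgroup Γ :=
  Subgroup.closure {g | ∃ (a : Cond A) (t : Perm (Fin n)), a.Le P ∧ t.IsThreeCycle ∧ g = a.val t}

theorem Le.mem_N1 (h : a.Le P) {t : Perm (Fin n)} (ht : t.IsThreeCycle) : a.val t ∈ P.N1 :=
  Subgroup.subset_closure ⟨a, t, h, ht, rfl⟩

theorem N1_commute (P : Cond A) : ∀ u ∈ P.N1, ∀ v ∈ P.compl.N1, Commute u v := by
  intro u hu v hv
  refine Subgroup.closure_induction (p := fun u _ => Commute u v) ?_ (by simp)
    (fun _ _ _ _ h1 h2 => h1.mul_left h2) (fun _ _ h => h.inv_left) hu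
  rintro _ ⟨a, s, ha, hs, rfl⟩
  refine Subgroup.closure_induction (p := fun v _ => Commute (a.val s) v) ?_ (by simp)
    (fun _ _ _ _ h1 h2 => h1.mul_right h2) (fun _ _ h => h.inv_right) hv
  rintro _ ⟨b, t, hb, ht, rfl⟩
  exact ha.orth (le_compl_iff_orth.1 hb).symm s t hs ht

theorem N1_norm (P : Cond A) (d : Perm (Fin n)) (hd : d.IsThreeCycle) :
    ∀ u ∈ P.N1, A.one d * u * (A.one d)⁻¹ ∈ P.N1 := by
  intro u hu
  refine Subgroup.closure_induction (p := fun u _ => A.one d * u * (A.one d)⁻¹ ∈ P.N1) ?_ (by simp) ?_ ?_ hu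
  · rintro _ ⟨a, s, ha, hs, rfl⟩
    rw [a.is.eqv d hd s hs]; exact ha.mem_N1 (three_conj hs d)
  · intro u v _ _ h1 h2
    have := P.N1.mul_mem h1 h2
    simpa [mul_assoc] using this
  · intro u _ h1
    have := P.N1.inv_mem h1
    simpa [mul_assoc] using this

/-- GENERATION criterion -/
theorem cp_of_mem (P M : Cond A)
    (h : ∀ (t : Perm (Fin n)) (J : Finset (Fin n)), t.IsThreeCycle → t.support ⊆ J → 5 ≤ J.card →
      ∃ u, u ∈ A.D J ∧ u ∈ P.N1 ∧ u⁻¹ * M.val t ∈ P.compl.N1) : P.Cp M := by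
  obtain ⟨a, ha⟩ := proj M P.N1 P.compl.N1 P.N1_commute P.N1_norm P.compl.N1_norm h
  have h1 : a.Le M := fun d hd => by
    have e : M.val d = a.val d * ((a.val d)⁻¹ * M.val d) := by group
    rw [e]
    simpa using (a.le_refl d hd).mul
      (Acts.of_commute fun t ht => (P.N1_commute _ (ha t ht).1 _ (ha d hd).2).symm)
  refine ⟨a, diff M a h1, le_iff_orth_compl.2 fun c d hc hd =>
    P.N1_commute _ (ha c hc).1 _ (P.compl.le_refl.mem_N1 hd), fun c d hc hd => ?_, mul_diff h1⟩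
  have e : (diff M a h1).val c = (a.val c)⁻¹ * M.val c := by rw [mul_diff h1 c hc]; group
  rw [e]
  exact (P.N1_commute _ (P.le_refl.mem_N1 hd) _ (ha c hc).2).symm

/-- COHERENCE -/
theorem Cp.cp_inf (h1 : P.Cp R) (h2 : P.Cp S) (h3 : R.Cp S) : P.Cp (R.inf S) := by
  obtain ⟨r1, r0, a1, a2, a3⟩ := h1
  obtain ⟨s1, s0, b1, b2, b3⟩ := h2
  refine cp_of_mem P _ fun t J ht hs hJ => ?_
  obtain ⟨k, a, c, ka, kc, ac, rfl⟩ := exists_cy ht
  obtain ⟨b, d, bJ, dJ, hb, hd, bd⟩ := exists_two_in (J := J) (F := {k, a, c})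
    (le_trans (Nat.add_le_add_right Finset.card_le_three 2) hJ)
  simp only [Finset.mem_insert, Finset.mem_singleton, not_or] at hb hd
  rw [support_cy ka kc ac] at hs
  simp only [Finset.insert_subset_iff, Finset.singleton_subset_iff] at hs
  have t1 := cy_three ka (Ne.symm hb.1) (Ne.symm hb.2.1)
  have t2 := cy_three kc (Ne.symm hd.1) (Ne.symm hd.2.2)
  have s1' : (cy k a b).support ⊆ J := by
    rw [support_cy ka (Ne.symm hb.1) (Ne.symm hb.2.1)]
    simp only [Finset.insert_subset_iff, Finset.singleton_subset_iff]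
    exact ⟨hs.1, hs.2.1, bJ⟩
  have s2' : (cy k c d).support ⊆ J := by
    rw [support_cy kc (Ne.symm hd.1) (Ne.symm hd.2.2)]
    simp only [Finset.insert_subset_iff, Finset.singleton_subset_iff]
    exact ⟨hs.1, hs.2.2, dJ⟩
  have cm : ∀ (H : Subgroup Γ) {u v : Γ}, u ∈ H → v ∈ H → ⁅u, v⁆ ∈ H := fun H u v hu hv => by
    rw [commutatorElement_def]
    exact H.mul_mem (H.mul_mem (H.mul_mem hu hv) (H.inv_mem hu)) (H.inv_mem hv)
  refine ⟨⁅r1.val (cy k a b), s1.val (cy k c d)⁆, cm _ (r1.is.mem _ J t1 s1' hJ) (s1.is.mem _ J t2 s2' hJ),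
    cm _ (a1.mem_N1 t1) (b1.mem_N1 t2), ?_⟩
  rw [h3.inf_cy ka (Ne.symm hb.1) kc (Ne.symm hd.1) (Ne.symm hb.2.1) ac (Ne.symm hd.2.1) hb.2.2 bd
    (Ne.symm hd.2.2), a3 _ t1, b3 _ t2, comm_mul_of_commute (a1.orth b2.symm _ _ t1 t2)
    (b1.orth a2.symm _ _ t2 t1).symm (a1.orth a2.symm _ _ t1 t1) (b1.orth b2.symm _ _ t2 t2),
    inv_mul_cancel_left]
  exact cm _ ((le_compl_iff_orth.2 a2).mem_N1 t1) ((le_compl_iff_orth.2 b2).mem_N1 t2)

instance : PartialOrder (Cond A) where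
  le := Le
  le_refl := le_refl
  le_trans _ _ _ := le_trans'
  le_antisymm _ _ := le_antisymm'

instance : COMP (Cond A) where
  top := top A
  bot := bot A
  le_top := le_top
  bot_le := bot_le
  min := inf
  max P R := (P.compl.inf R.compl).compl
  compl := compl
  Cp := Cp
  cp_symm := Cp.symm
  cp_of_le := Cp.of_le
  cp_compl := Cp.compl
  cp_inf := Cp.cp_inf
  compl_compl' := compl_compl
  compl_anti := compl_anti
  inf_le_l := Cp.inf_le_l
  inf_le_r := Cp.inf_le_r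
  le_inf' := Cp.le_inf
  sup_eq _ _ := rfl
  inf_compl' P := eq_bot_of_le_of_orth (Cp.of_le P.le_refl).compl.inf_le_l
    (le_compl_iff_orth.1 (Cp.of_le P.le_refl).compl.inf_le_r)
  split := Cp.split

/-! ### dictionary -/

theorem le_def : P ≤ R ↔ P.Le R := Iff.rfl
theorem cp_def : COMP.Cp P R ↔ P.Cp R := Iff.rfl
theorem inf_def : P ⊓ R = P.inf R := rfl
theorem compl_def : Pᶜ = P.compl := rfl
theorem top_def : (⊤ : Cond A) = top A := rfl
theorem bot_def : (⊥ : Cond A) = bot A := rfl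
theorem le_compl_iff : P ≤ Rᶜ ↔ P.Orth R := le_compl_iff_orth
theorem bot_val (c : Perm (Fin n)) : (⊥ : Cond A).val c = 1 := rfl
theorem top_val' {c : Perm (Fin n)} (hc : c.IsThreeCycle) : (⊤ : Cond A).val c = A.one c := top_val hc
theorem compl_val' (P : Cond A) {c : Perm (Fin n)} (hc : c.IsThreeCycle) :
    (Pᶜ).val c = A.one c * (P.val c)⁻¹ := compl_val P hc

theorem sup_val (h : P ≤ Rᶜ) {c : Perm (Fin n)} (hc : c.IsThreeCycle) :
    (P ⊔ R).val c = P.val c * R.val c := by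
  have ho := le_compl_iff.1 h
  have : P ⊔ R = add P R ho := sup_of_mul ho fun c hc => add_val ho hc
  rw [this, add_val ho hc]

theorem split_val (h : COMP.Cp P R) {c : Perm (Fin n)} (hc : c.IsThreeCycle) :
    P.val c = (P ⊓ R).val c * (P ⊓ Rᶜ).val c := (Cp.split_val h).2 c hc

theorem acts_of_le (h : P ≤ R) {d : Perm (Fin n)} (hd : d.IsThreeCycle) : Acts P.val (R.val d) d := h d hd

/-- if the unconditional 3-cycles are products of elements of conditions below `z`, then `z = ⊤` -/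
theorem eq_top_of_mem {z : Cond A} (h : ∀ d : Perm (Fin n), d.IsThreeCycle → A.one d ∈ z.N1) : z = ⊤ := by
  have : z.compl = bot A := eq_bot_of_le_of_orth z.compl.le_top fun c d hc hd => by
    rw [top_val hd]; exact (z.N1_commute _ (h d hd) _ (z.compl.le_refl.mem_N1 hc)).symm
  refine Cond.ext' fun c hc => ?_
  have e := compl_val z hc
  rw [this] at e
  rw [top_val' hc]
  exact (mul_inv_eq_one.1 e.symm).symm

end Cond

end Crest.Agent.R189.B1

end
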