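import Crest.Agent.R189.B1.Defs
import Crest.Agent.R189.B1.Lift

/-!
# Row 189, block B1: a finite criterion for compatibility

Recipe.  `ψ k a c := ⁅P (cy k a b), R (cy k c d)⁆`; for a 3-cycle `t` choose a representation `t = cy k a c`
(`exists_cy`) and `b, d` fresh, `y t := ψ`.  Call `Ψ` the set of all commutators `⁅P (cy k a b), R (cy k c d)⁆` (five distinct levels).
(1) `ψ` does not depend on `b`, `d`: `P (cy k b a) * P (cy k a b') = P (cy b a b')` (`four`) commutes with `R (cy k c d)`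
(`commute_of_disjoint`); same for `d`; general change through a fresh pair.
(2) `A.one s` conjugates `ψ k a c` to `ψ (s k) (s a) (s c)` (`eqv`, `conj_cy`); by hypothesis `P s` and `R s` do the same
(`A.one s * (P s)⁻¹` commutes with `Ψ`); so `ψ k a c` acts on `Ψ` as the permutation `cy k a c` (`cy_comm`).
With `s = cy k a c` acting on `ψ k a c` itself: `ψ k a c = ψ a c k`.  So `y (cy k a c) = ψ k a c` for every representation,
`Acts y (A.one s) s`, `Acts y (P s) s`, `Acts y (R s) s`, `Acts y (y s) s`.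
(3) `Z := {g | Acts y g 1}` (a subgroup; `Acts.mul/inv/commute`); the hypotheses of `lift` hold since the products act as the
trivial permutation.  Let `M` be the lifted family, `M (cy k a c) = ⁅y (cy k a b), y (cy k c d)⁆`; any `g` with `Acts y g σ` has
`Acts M g σ`.  `M` is a condition (`mem`: take `b, d` in `J`, `exists_two_in`; `y (cy k a b) ∈ D J` by (1)), `M.Le P`, `M.Le R`.
(4) `P' = diff P M`, `R' = diff R M`.  `ψ k a c = M (cy k a c) * ⁅P' (cy k a b), R' (cy k c d)⁆`, so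
`z = ⁅P' (cy k a b), R' (cy k c d)⁆ = (M t)⁻¹ * y t` commutes with all `P' s` (`P' s = P s * (M s)⁻¹` acts trivially on `y` and `M`;
`Acts y (M s) s` because `M s * (y s)⁻¹ ∈ Z`).  Hence conjugation by `r = R' (cy k c d)` multiplies each `P' (cy k a b)` (`a, b ∉ {c,d}`) by
an element commuting with the image of `P'`; by `Pre.comm` (auxiliary levels outside `{c,d}`) `r` commutes with `P' (cy k a b)`.
With `commute_of_disjoint` and `Pre.mem_of_fresh` (H = centralizer of `R' t`, F = support of `t`): `P'.Orth R'`.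
(5) `R' ⊥ M` and `R' ⊥ P'` give `R'.Orth P`; `R = M * R'` (`diff_val`, `Le.commute_same`).
-/

set_option autoImplicit false
set_option linter.unusedVariables false

namespace Crest.Agent.R189.B1

open Equiv C
open scoped commutatorElement

variable {n : ℕ} {Γ : Type*} [Group Γ] {A : Amb n Γ}

/-- five distinct levels -/
structure k2_D (k a b c d : Fin n) : Prop where
  ka : k ≠ a
  kb : k ≠ b
  kc : k ≠ c
  kd : k ≠ d
  ab : a ≠ b
  ac : a ≠ c
  ad : a ≠ d
  bc : b ≠ c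
  bd : b ≠ d
  cd : c ≠ d

section k2
variable {k a b c d b' d' : Fin n}

theorem k2_D.map (h : k2_D k a b c d) (σ : Perm (Fin n)) : k2_D (σ k) (σ a) (σ b) (σ c) (σ d) :=
  have i := σ.injective
  ⟨i.ne h.ka, i.ne h.kb, i.ne h.kc, i.ne h.kd, i.ne h.ab, i.ne h.ac, i.ne h.ad, i.ne h.bc, i.ne h.bd, i.ne h.cd⟩

theorem k2_D.rot (h : k2_D k a b c d) : k2_D a c b k d :=
  ⟨h.ac, h.ab, h.ka.symm, h.ad, h.bc.symm, h.kc.symm, h.cd, h.kb.symm, h.bd, h.kd⟩

theorem k2_D.t1 (h : k2_D k a b c d) : (cy k a b).IsThreeCycle := cy_three h.ka h.kb h.ab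
theorem k2_D.t2 (h : k2_D k a b c d) : (cy k c d).IsThreeCycle := cy_three h.kc h.kd h.cd
theorem k2_D.t3 (h : k2_D k a b c d) : (cy k a c).IsThreeCycle := cy_three h.ka h.kc h.ac

theorem k2_mk (ka : k ≠ a) (kc : k ≠ c) (ac : a ≠ c) (hb : b ∉ ({k, a, c} : Finset (Fin n)))
    (hd : d ∉ ({k, a, c} : Finset (Fin n))) (bd : b ≠ d) : k2_D k a b c d := by
  simp only [Finset.mem_insert, Finset.mem_singleton, not_or] at hb hd
  exact ⟨ka, Ne.symm hb.1, kc, Ne.symm hd.1, Ne.symm hb.2.1, ac, Ne.symm hd.2.1, hb.2.2, bd, Ne.symm hd.2.2⟩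

theorem k2_rep (hn : 10 ≤ n) {t : Perm (Fin n)} (ht : t.IsThreeCycle) : ∃ k a b c d, k2_D k a b c d ∧ t = cy k a c := by
  obtain ⟨k, a, c, ka, kc, ac, rfl⟩ := exists_cy ht
  obtain ⟨b, d, hb, hd, bd⟩ := exists_fresh2 ({k, a, c} : Finset (Fin n))
    (lt_of_le_of_lt (Nat.succ_le_succ Finset.card_le_three) (by omega))
  exact ⟨k, a, b, c, d, k2_mk ka kc ac hb hd bd, rfl⟩

theorem k2_step (P : Cond A) (ka : k ≠ a) (kb : k ≠ b) (kb' : k ≠ b') (ab : a ≠ b) (ab' : a ≠ b') (bb : b ≠ b') :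
    P.val (cy k a b') = P.val (cy k a b) * P.val (cy b a b') := by
  rw [← P.is.pre.four k b a b' kb ka kb' ab.symm bb ab', ← cy_inv ka kb ab, P.is.pre.inv _ (cy_three ka kb ab),
    mul_inv_cancel_left]

theorem k2_disj (P R : Cond A) {u v w x y z : Fin n} (h1 : u ≠ v) (h2 : u ≠ w) (h3 : v ≠ w) (h4 : x ≠ y) (h5 : x ≠ z)
    (h6 : y ≠ z) (h : (u ≠ x ∧ u ≠ y ∧ u ≠ z) ∧ (v ≠ x ∧ v ≠ y ∧ v ≠ z) ∧ w ≠ x ∧ w ≠ y ∧ w ≠ z) :
    Commute (P.val (cy u v w)) (R.val (cy x y z)) := by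
  refine P.commute_of_disjoint R (cy_three h1 h2 h3) (cy_three h4 h5 h6) ?_
  rw [support_cy h1 h2 h3, support_cy h4 h5 h6]
  simpa only [Finset.disjoint_insert_left, Finset.disjoint_singleton_left, Finset.mem_insert, Finset.mem_singleton,
    not_or] using h

/-- the basic commutator -/
def k2_psi (P R : Cond A) (k a b c d : Fin n) : Γ := ⁅P.val (cy k a b), R.val (cy k c d)⁆

theorem k2_b (P R : Cond A) (h : k2_D k a b c d) (h' : k2_D k a b' c d) : k2_psi P R k a b c d = k2_psi P R k a b' c d := by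
  rcases eq_or_ne b b' with rfl | bb
  · rfl
  have e := (k2_disj P R h.ab.symm bb h'.ab h.kc h.kd h.cd
    ⟨⟨h.kb.symm, h.bc, h.bd⟩, ⟨h.ka.symm, h.ac, h.ad⟩, h'.kb.symm, h'.bc, h'.bd⟩).eq
  rw [k2_psi, k2_psi, k2_step P h.ka h.kb h'.kb h.ab h'.ab bb, commutatorElement_def, commutatorElement_def,
    mul_assoc (P.val _) (P.val _), e]
  group

theorem k2_d (P R : Cond A) (h : k2_D k a b c d) (h' : k2_D k a b c d') : k2_psi P R k a b c d = k2_psi P R k a b c d' := by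
  rcases eq_or_ne d d' with rfl | dd
  · rfl
  have e := (k2_disj P R h.ka h.kb h.ab h.cd.symm dd h'.cd
    ⟨⟨h.kd, h.kc, h'.kd⟩, ⟨h.ad, h.ac, h'.ad⟩, h.bd, h.bc, h'.bd⟩).inv_left.eq
  rw [k2_psi, k2_psi, k2_step R h.kc h.kd h'.kd h.cd h'.cd dd, commutatorElement_def, commutatorElement_def,
    ← mul_assoc (P.val _), mul_assoc _ (R.val _) (P.val _)⁻¹, mul_assoc _ (R.val _) (P.val _)⁻¹, ← e]
  group

theorem k2_ind (P R : Cond A) (h : k2_D k a b c d) (h' : k2_D k a b' c d') :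
    k2_psi P R k a b c d = k2_psi P R k a b' c d' := by
  obtain ⟨e, he⟩ := exists_fresh ({k, a, c, b, b'} : Finset (Fin n))
    (lt_of_le_of_lt Finset.card_le_five (by have := A.hn; omega))
  simp only [Finset.mem_insert, Finset.mem_singleton, not_or] at he
  obtain ⟨e1, e2, e3, e4, e5⟩ := he
  have g : k2_D k a b c e := ⟨h.ka, h.kb, h.kc, Ne.symm e1, h.ab, h.ac, Ne.symm e2, h.bc, Ne.symm e4, Ne.symm e3⟩
  have g' : k2_D k a b' c e := ⟨h.ka, h'.kb, h.kc, Ne.symm e1, h'.ab, h.ac, Ne.symm e2, h'.bc, Ne.symm e5, Ne.symm e3⟩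
  rw [k2_d P R h g, k2_b P R g g', k2_d P R g' h']

/-- `g` acts on the basic commutators as `σ` -/
def k2_Act (P R : Cond A) (g : Γ) (σ : Perm (Fin n)) : Prop := ∀ k a b c d, k2_D k a b c d →
  g * k2_psi P R k a b c d * g⁻¹ = k2_psi P R (σ k) (σ a) (σ b) (σ c) (σ d)

variable {P R : Cond A} {g g' : Γ} {σ σ' : Perm (Fin n)}

theorem k2_Act.mul (h : k2_Act P R g σ) (h' : k2_Act P R g' σ') : k2_Act P R (g * g') (σ * σ') := fun k a b c d hD => by
  simp only [Perm.mul_apply]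
  rw [← h _ _ _ _ _ (hD.map σ'), ← h' _ _ _ _ _ hD]
  group

theorem k2_Act.inv (h : k2_Act P R g σ) : k2_Act P R g⁻¹ σ⁻¹ := fun k a b c d hD => by
  have := h _ _ _ _ _ (hD.map σ⁻¹)
  simp only [Perm.inv_def, apply_symm_apply] at this
  simp only [Perm.inv_def]
  rw [← this]
  group

theorem k2_one (P R : Cond A) {s : Perm (Fin n)} (hs : s.IsThreeCycle) : k2_Act P R (A.one s) s := fun k a b c d hD => by
  rw [k2_psi, conjugate_commutatorElement, P.is.eqv s hs _ hD.t1, R.is.eqv s hs _ hD.t2, conj_cy, conj_cy, k2_psi]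

theorem k2_of {s : Perm (Fin n)} (hs : s.IsThreeCycle)
    (h : ∀ k a b c d, k2_D k a b c d → Commute (k2_psi P R k a b c d) (A.one s * g⁻¹)) : k2_Act P R g s := by
  have h1 : k2_Act P R (A.one s * g⁻¹) 1 := fun k a b c d hD => by
    rw [← (h k a b c d hD).eq, mul_inv_cancel_right]; rfl
  simpa using h1.inv.mul (k2_one P R hs)

theorem k2_mul_comm {p r m m' : Γ} (h1 : Commute p m) (h2 : Commute p m') (h3 : Commute r m) (h4 : Commute r m') :
    ⁅p * m, r * m'⁆ = ⁅p, r⁆ * ⁅m, m'⁆ := by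
  simp only [commutatorElement_def]
  rw [h1.eq, h4.eq, mul_inv_rev, mul_inv_rev, ← h1.eq, ← h4.eq, h3.symm.mul_mul_mul_comm,
    (h1.inv_left.symm.mul_left h2.inv_left.symm).mul_mul_mul_comm,
    ((h3.inv_left.symm.mul_left h4.inv_left.symm).mul_left h3.inv_inv.symm).mul_mul_mul_comm]

theorem k2_y (hP : ∀ s : Perm (Fin n), s.IsThreeCycle → k2_Act P R (P.val s) s)
    (hR : ∀ s : Perm (Fin n), s.IsThreeCycle → k2_Act P R (R.val s) s) : ∃ y : Perm (Fin n) → Γ,
    (∀ k a b c d, k2_D k a b c d → y (cy k a c) = k2_psi P R k a b c d) ∧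
    (∀ g σ, k2_Act P R g σ → Acts y g σ) ∧ ∀ s : Perm (Fin n), s.IsThreeCycle → Acts y (y s) s := by
  have h1 : ∀ k a b c d, k2_D k a b c d → k2_Act P R (k2_psi P R k a b c d) (cy k a c) := fun k a b c d h => by
    rw [← cy_comm h.ka h.kb h.kc h.kd h.ab h.ac h.ad h.bc h.bd h.cd, k2_psi, commutatorElement_def, commutatorElement_def]
    exact (((hP _ h.t1).mul (hR _ h.t2)).mul (hP _ h.t1).inv).mul (hR _ h.t2).inv
  have h2 : ∀ k a b c d, k2_D k a b c d → k2_psi P R k a b c d = k2_psi P R a c b k d := fun k a b c d h => by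
    have := h1 _ _ _ _ _ h _ _ _ _ _ h
    rwa [mul_inv_cancel_right, cy_fst h.ka h.kc, cy_snd h.kc h.ac, cy_thd h.ka h.kc h.ac,
      cy_of_ne h.kb.symm h.ab.symm h.bc, cy_of_ne h.kd.symm h.ad.symm h.cd.symm] at this
  have h3 : ∀ k a b c d a' b' c' d', k2_D k a b c d → k2_D k a' b' c' d' → cy k a c = cy k a' c' →
      k2_psi P R k a b c d = k2_psi P R k a' b' c' d' := fun k a b c d a' b' c' d' h h' e => by
    obtain rfl : a = a' := by rw [← cy_fst h.ka h.kc, e, cy_fst h'.ka h'.kc]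
    obtain rfl : c = c' := by rw [← cy_snd h.kc h.ac, e, cy_snd h'.kc h'.ac]
    exact k2_ind P R h h'
  have h4 : ∀ t : Perm (Fin n), ∃ g : Γ, ∀ k a b c d, k2_D k a b c d → t = cy k a c → g = k2_psi P R k a b c d := fun t => by
    by_cases ht : ∃ k a b c d, k2_D k a b c d ∧ t = cy k a c
    swap
    · exact ⟨1, fun k a b c d h e => (ht ⟨k, a, b, c, d, h, e⟩).elim⟩
    obtain ⟨k, a, b, c, d, h, rfl⟩ := ht
    refine ⟨k2_psi P R k a b c d, fun k' a' b' c' d' h' e => ?_⟩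
    rcases cy_supp (show cy k a c k' ≠ k' by rw [e, cy_fst h'.ka h'.kc]; exact h'.ka.symm) with rfl | rfl | rfl
    · exact h3 _ _ _ _ _ _ _ _ _ h h' e
    · rw [h2 _ _ _ _ _ h]
      exact h3 _ _ _ _ _ _ _ _ _ h.rot h' ((cy_rot h.ka h.kc h.ac).symm.trans e)
    · rw [h2 _ _ _ _ _ h, h2 _ _ _ _ _ h.rot]
      exact h3 _ _ _ _ _ _ _ _ _ h.rot.rot h'
        (((cy_rot h.ka h.kc h.ac).trans (cy_rot h.ac h.ka.symm h.kc.symm)).symm.trans e)
  choose y hy using h4
  have h5 : ∀ g σ, k2_Act P R g σ → Acts y g σ := fun g σ h t ht => by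
    obtain ⟨k, a, b, c, d, hD, rfl⟩ := k2_rep A.hn ht
    rw [hy _ _ _ _ _ _ hD rfl, h _ _ _ _ _ hD, hy _ _ _ _ _ _ (hD.map σ) (conj_cy ..)]
  refine ⟨y, fun k a b c d h => hy _ _ _ _ _ _ h rfl, h5, fun s hs => h5 _ _ ?_⟩
  obtain ⟨k, a, b, c, d, hD, rfl⟩ := k2_rep A.hn hs
  rw [hy _ _ _ _ _ _ hD rfl]
  exact h1 _ _ _ _ _ hD

end k2
theorem Cond.cp_of_comm (P R : Cond A)
    (h : ∀ k a b c d : Fin n, k ≠ a → k ≠ b → k ≠ c → k ≠ d → a ≠ b → a ≠ c → a ≠ d → b ≠ c → b ≠ d →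
      c ≠ d → ∀ t : Perm (Fin n), t.IsThreeCycle →
        Commute ⁅P.val (cy k a b), R.val (cy k c d)⁆ (A.one t * (P.val t)⁻¹) ∧
        Commute ⁅P.val (cy k a b), R.val (cy k c d)⁆ (A.one t * (R.val t)⁻¹)) : P.Cp R := by
  have hc := fun k a b c d (g : k2_D k a b c d) => h k a b c d g.ka g.kb g.kc g.kd g.ab g.ac g.ad g.bc g.bd g.cd
  have hP : ∀ s : Perm (Fin n), s.IsThreeCycle → k2_Act P R (P.val s) s := fun s hs =>
    k2_of hs fun k a b c d g => (hc k a b c d g s hs).1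
  have hR : ∀ s : Perm (Fin n), s.IsThreeCycle → k2_Act P R (R.val s) s := fun s hs =>
    k2_of hs fun k a b c d g => (hc k a b c d g s hs).2
  obtain ⟨y, hy, hA, hyy⟩ := k2_y hP hR
  let Z : Subgroup Γ :=
    { carrier := {g | Acts y g 1}
      one_mem' := Acts.one y
      mul_mem' := fun h1 h2 => by simpa using Acts.mul h1 h2
      inv_mem' := fun h1 => by simpa using Acts.inv h1 }
  obtain ⟨x, hx, hxy, hxc⟩ := lift A.hn y Z (fun z hz t ht => Acts.commute hz ht)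
    (fun c hc => by
      have := (hyy _ hc.inv).mul (hyy _ hc)
      rwa [inv_mul_cancel] at this)
    (fun c d hc hd => by
      have := (((hyy _ hd).mul (hyy _ hc)).mul (hyy _ hd).inv).mul (hyy _ (three_conj hc d)).inv
      rwa [mul_inv_cancel] at this)
    (fun k a b c h1 h2 h3 h4 h5 h6 => by
      have := ((hyy _ (cy_three h1 h2 h4)).mul (hyy _ (cy_three h2 h3 h6))).mul (hyy _ (cy_three h4 h5 h6)).inv
      rwa [cy_four h1 h2 h3 h4 h5 h6, mul_inv_cancel] at this)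
  replace hxc := fun k a b c d (g : k2_D k a b c d) => hxc k a b c d g.ka g.kb g.kc g.kd g.ab g.ac g.ad g.bc g.bd g.cd
  have hB : ∀ g σ, Acts y g σ → Acts x g σ := fun g σ h t ht => by
    obtain ⟨k, a, b, c, d, hD, rfl⟩ := k2_rep A.hn ht
    rw [hxc _ _ _ _ _ hD, conjugate_commutatorElement, h _ hD.t1, h _ hD.t2, conj_cy, conj_cy, conj_cy,
      hxc _ _ _ _ _ (hD.map σ)]
  have hM : IsCond A x := by
    refine ⟨hx, fun t J ht h1 h2 => ?_, fun d hd => hB _ _ (hA _ _ (k2_one P R hd))⟩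
    have key : ∀ k a b c d, k2_D k a b c d → k ∈ J → a ∈ J → b ∈ J → c ∈ J → d ∈ J → y (cy k a c) ∈ A.D J := by
      intro k a b c d g hk ha hb hc hd
      have m1 := P.is.mem _ J g.t1 (by rw [support_cy g.ka g.kb g.ab]; simp [Finset.insert_subset_iff, *]) h2
      have m2 := R.is.mem _ J g.t2 (by rw [support_cy g.kc g.kd g.cd]; simp [Finset.insert_subset_iff, *]) h2
      rw [hy _ _ _ _ _ g, k2_psi, commutatorElement_def]
      exact mul_mem (mul_mem (mul_mem m1 m2) (inv_mem m1)) (inv_mem m2)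
    obtain ⟨k, a, c, ka, kc, ac, rfl⟩ := exists_cy ht
    rw [support_cy ka kc ac] at h1
    obtain ⟨b, d, hb, hd, hb', hd', bd⟩ := exists_two_in (J := J) (F := {k, a, c})
      ((Nat.add_le_add_right Finset.card_le_three 2).trans h2)
    have g := k2_mk ka kc ac hb' hd' bd
    simp only [Finset.insert_subset_iff, Finset.singleton_subset_iff] at h1
    have m1 := key k a c b d ⟨ka, kc, g.kb, g.kd, ac, g.ab, g.ad, g.bc.symm, g.cd, bd⟩ h1.1 h1.2.1 h1.2.2 hb hd
    have m2 := key k c a d b ⟨kc, ka, g.kd, g.kb, ac.symm, g.cd, g.bc.symm, g.ad, g.ab, bd.symm⟩ h1.1 h1.2.2 h1.2.1 hd hb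
    rw [hxc _ _ _ _ _ g, commutatorElement_def]
    exact mul_mem (mul_mem (mul_mem m1 m2) (inv_mem m1)) (inv_mem m2)
  have hv : ∀ c : Perm (Fin n), c.IsThreeCycle → (Cond.mk' x hM).val c = x c := fun c hc => Cond.mk'_val hM hc
  generalize Cond.mk' x hM = M at hv
  have hMP : M.Le P := fun d hd => (hB _ _ (hA _ _ (hP d hd))).congr hv
  have hMR : M.Le R := fun d hd => (hB _ _ (hA _ _ (hR d hd))).congr hv
  have oP := Cond.diff_orth hMP
  have oR := Cond.diff_orth hMR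
  have vP : ∀ c : Perm (Fin n), c.IsThreeCycle → P.val c = (P.diff M hMP).val c * M.val c := fun c hc => by
    rw [Cond.diff_val hMP hc, inv_mul_cancel_right]
  have vR : ∀ c : Perm (Fin n), c.IsThreeCycle → R.val c = (R.diff M hMR).val c * M.val c := fun c hc => by
    rw [Cond.diff_val hMR hc, inv_mul_cancel_right]
  have aP : ∀ s : Perm (Fin n), s.IsThreeCycle → Acts y ((P.diff M hMP).val s) 1 := fun s hs => by
    have a1 : Acts y (x s * (y s)⁻¹) 1 := hxy s hs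
    have a2 := (hA _ _ (hP s hs)).mul (a1.mul (hyy s hs)).inv
    rwa [inv_mul_cancel_right, one_mul, mul_inv_cancel, ← hv s hs, ← Cond.diff_val hMP hs] at a2
  generalize P.diff M hMP = P' at oP vP aP
  generalize R.diff M hMR = R' at oR vR
  have e1 : ∀ k a b c d, k2_D k a b c d →
      ⁅P'.val (cy k a b), R'.val (cy k c d)⁆ = y (cy k a c) * (M.val (cy k a c))⁻¹ := fun k a b c d g => by
    rw [hy _ _ _ _ _ g, k2_psi, vP _ g.t1, vR _ g.t2,
      k2_mul_comm (oP _ _ g.t1 g.t1) (oP _ _ g.t1 g.t2) (oR _ _ g.t2 g.t1) (oR _ _ g.t2 g.t2),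
      M.is.pre.comm g.ka g.kb g.kc g.kd g.ab g.ac g.ad g.bc g.bd g.cd, mul_inv_cancel_right]
  have e2 : ∀ s t : Perm (Fin n), s.IsThreeCycle → t.IsThreeCycle → Commute (y t * (M.val t)⁻¹)⁻¹ (P'.val s) :=
    fun s t hs ht => (((aP s hs).commute ht).mul_right (oP s t hs ht).inv_right).inv_right.symm
  have e3 : ∀ s t : Perm (Fin n), s.IsThreeCycle → t.IsThreeCycle →
      Commute (y s * (M.val s)⁻¹)⁻¹ (y t * (M.val t)⁻¹)⁻¹ := fun s t hs ht => by
    have a1 : Acts y (x s * (y s)⁻¹) 1 := hxy s hs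
    rw [hv s hs, hv t ht, mul_inv_rev, inv_inv]
    exact ((a1.commute ht).mul_right ((hB _ _ a1).commute ht).inv_right).inv_right
  have e4 : ∀ k a b c d, k2_D k a b c d → R'.val (cy k c d) * P'.val (cy k a b) * (R'.val (cy k c d))⁻¹ =
      (y (cy k a c) * (M.val (cy k a c))⁻¹)⁻¹ * P'.val (cy k a b) := fun k a b c d g => by
    rw [← e1 _ _ _ _ _ g, commutatorElement_def]; group
  have e5 : ∀ k a b c d, k2_D k a b c d → Commute (P'.val (cy k a b)) (R'.val (cy k c d)) := fun k a b c d g => by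
    obtain ⟨e, f, he, hf, ef⟩ := exists_fresh2 ({k, a, b, c, d} : Finset (Fin n))
      (lt_of_le_of_lt (Nat.succ_le_succ Finset.card_le_five) (by have := A.hn; omega))
    simp only [Finset.mem_insert, Finset.mem_singleton, not_or] at he hf
    obtain ⟨a1, a2, a3, a4, a5⟩ := he
    obtain ⟨b1, b2, b3, b4, b5⟩ := hf
    have g1 : k2_D k a e c d := ⟨g.ka, Ne.symm a1, g.kc, g.kd, Ne.symm a2, g.ac, g.ad, a4, a5, g.cd⟩
    have g2 : k2_D k b f c d := ⟨g.kb, Ne.symm b1, g.kc, g.kd, Ne.symm b3, g.bc, g.bd, b4, b5, g.cd⟩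
    refine (mul_inv_eq_iff_eq_mul.1 ?_ : Commute _ _).symm
    rw [P'.is.pre.comm g.ka (Ne.symm a1) g.kb (Ne.symm b1) (Ne.symm a2) g.ab (Ne.symm b2) a3 ef (Ne.symm b3),
      conjugate_commutatorElement, e4 _ _ _ _ _ g1, e4 _ _ _ _ _ g2,
      k2_mul_comm (e2 _ _ g1.t1 g1.t3) (e2 _ _ g2.t1 g1.t3) (e2 _ _ g1.t1 g2.t3) (e2 _ _ g2.t1 g2.t3),
      commutatorElement_eq_one_iff_commute.2 (e3 _ _ g1.t3 g2.t3), one_mul]
  have o : P'.Orth R' := fun s t hs ht => by
    have := P'.is.pre.mem_of_fresh (Subgroup.centralizer {R'.val t}) (F := t.support)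
      (by rw [ht.card_support]; have := A.hn; omega) (fun a k l ak al kl hk hl => ?_) hs
    · exact Subgroup.mem_centralizer_singleton_iff.1 this
    refine Subgroup.mem_centralizer_singleton_iff.2 ?_
    by_cases ha : a ∈ t.support
    · obtain ⟨c, d, ac, ad, cd, rfl⟩ := exists_cy_at ht ha
      rw [support_cy ac ad cd] at hk hl
      simp only [Finset.mem_insert, Finset.mem_singleton, not_or] at hk hl
      exact e5 a k l c d ⟨ak, al, ac, ad, kl, hk.2.1, hk.2.2, hl.2.1, hl.2.2, cd⟩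
    · refine P'.commute_of_disjoint R' (cy_three ak al kl) ht ?_
      rw [support_cy ak al kl]
      simp only [Finset.disjoint_insert_left, Finset.disjoint_singleton_left]
      exact ⟨ha, hk, hl⟩
  refine ⟨M, R', hMP, fun s t hs ht => ?_, fun c hc => ?_⟩
  · rw [vP t ht]
    exact (o t s ht hs).symm.mul_right (oR s t hs ht)
  · rw [vR c hc, (oR c c hc hc).eq]

end Crest.Agent.R189.B1
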