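import Crest.Agent.R189.B1.Defs

/-!
# Row 189, block B1: translating a condition

Recipe.  `commute_τ`: if `t` has sum zero and vanishes on the support of `c`, write `t = t1 + t2` with `t2` supported on `{x, y, u}`,
`t2 x = t x`, `t2 y = t y`, `t2 u = -(t x + t y)` (`x, y, u` and two more levels `z, w` outside the support, all distinct); `t1` vanishes on
`supp ∪ {x,y}`, `t2` on `supp ∪ {z,w}`; use `T.fix` and `P.is.mem`.  `exists_t` (C/Rig) gives `t` with prescribed values on a proper set of levels: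
for two 3-cycles take `t = v` on the union of the supports (and of the support of the conjugate), so that all relations are conjugates by one `τ t`.
`mem`: shrink `J` to a 5-set.  `eqv`: `T.perm`.
-/

set_option autoImplicit false
set_option linter.unusedVariables false

noncomputable section

namespace Crest.Agent.R189.B1

open Equiv C

variable {n : ℕ} {Γ : Type*} [Group Γ] {A : Amb n Γ} {G : Type*} [AddCommGroup G]

namespace Tr

variable (T : Tr A G)

theorem τ_zero : T.τ 0 = 1 := by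
  have := T.τ_add 0 0 (by simp) (by simp)
  simpa using this

theorem commute_τ (P : Cond A) {c : Perm (Fin n)} (hc : c.IsThreeCycle) {t : Fin n → G}
    (ht : ∑ i, t i = 0) (h : ∀ i, c i ≠ i → t i = 0) : Commute (T.τ t) (P.val c) := by
  have hn := A.hn
  have h3 := hc.card_support
  obtain ⟨x, y, hx, hy, xy⟩ := exists_fresh2 c.support (by omega)
  have c1 : (insert x (insert y c.support)).card = 5 := by
    rw [Finset.card_insert_of_notMem (by simp only [Finset.mem_insert, not_or]; exact ⟨xy, hx⟩),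
      Finset.card_insert_of_notMem hy, h3]
  obtain ⟨z, w, hz, hw, zw⟩ := exists_fresh2 (insert x (insert y c.support)) (by omega)
  obtain ⟨u, hu⟩ := exists_fresh (insert z (insert w (insert x (insert y c.support))))
    (lt_of_le_of_lt ((Finset.card_insert_le _ _).trans (Nat.succ_le_succ (Finset.card_insert_le _ _))) (by omega))
  simp only [Finset.mem_insert, not_or] at hz hw hu
  have c2 : (insert z (insert w c.support)).card = 5 := by
    rw [Finset.card_insert_of_notMem (by simp only [Finset.mem_insert, not_or]; exact ⟨zw, hz.2.2⟩),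
      Finset.card_insert_of_notMem hw.2.2, h3]
  obtain ⟨s, hs⟩ : ∃ s : Fin n → G, s = Pi.single x (t x) + Pi.single y (t y) - Pi.single u (t x + t y) := ⟨_, rfl⟩
  have s0 : ∑ i, s i = 0 := by simp [hs, Finset.sum_sub_distrib, Finset.sum_add_distrib]
  have s1 : ∑ i, (t - s) i = 0 := by simp [Finset.sum_sub_distrib, ht, s0]
  have s2 : ∀ i, i ≠ x → i ≠ y → i ≠ u → s i = 0 := fun i h1 h2 h3 => by simp [hs, h1, h2, h3]
  have s3 : ∀ i ∈ c.support, s i = 0 := fun i hi =>
    s2 i (fun e => hx (e ▸ hi)) (fun e => hy (e ▸ hi)) (fun e => hu.2.2.2.2 (e ▸ hi))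
  rw [← sub_add_cancel t s, T.τ_add _ _ s1 s0]
  refine (T.fix _ _ _ s1 (fun i hi => ?_) (P.is.mem c _ hc
    ((Finset.subset_insert _ _).trans (Finset.subset_insert _ _)) c1.ge)).mul_left
    (T.fix _ _ _ s0 (fun i hi => ?_) (P.is.mem c _ hc ((Finset.subset_insert _ _).trans (Finset.subset_insert _ _)) c2.ge))
  · simp only [Finset.mem_insert] at hi
    rcases hi with rfl | rfl | hi
    · simp [hs, xy, Ne.symm hu.2.2.1]
    · simp [hs, xy.symm, Ne.symm hu.2.2.2.1]
    · rw [Pi.sub_apply, s3 i hi, h i (Perm.mem_support.1 hi), sub_zero]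
  · simp only [Finset.mem_insert] at hi
    rcases hi with rfl | rfl | hi
    · exact s2 _ hz.1 hz.2.1 (Ne.symm hu.1)
    · exact s2 _ hw.1 hw.2.1 (Ne.symm hu.2.1)
    · exact s3 i hi

theorem shf_indep (P : Cond A) {c : Perm (Fin n)} (hc : c.IsThreeCycle) {t t' : Fin n → G} {v : G}
    (ht : ∑ i, t i = 0) (ht' : ∑ i, t' i = 0) (h : ∀ i, c i ≠ i → t i = v) (h' : ∀ i, c i ≠ i → t' i = v) :
    T.τ t * P.val c * (T.τ t)⁻¹ = T.τ t' * P.val c * (T.τ t')⁻¹ := by
  have s1 : ∑ i, (t - t') i = 0 := by simp [Finset.sum_sub_distrib, ht, ht']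
  have e := (T.commute_τ P hc s1 fun i hi => by rw [Pi.sub_apply, h i hi, h' i hi, sub_self]).eq
  rw [← add_sub_cancel t' t, T.τ_add _ _ ht' s1, mul_assoc (T.τ t'), e]
  group

omit T in
theorem shf_two (hn : 10 ≤ n) (v : G) {c d : Perm (Fin n)} (hc : c.IsThreeCycle) (hd : d.IsThreeCycle) :
    ∃ t : Fin n → G, ∑ i, t i = 0 ∧ (∀ i, c i ≠ i → t i = v) ∧ (∀ i, d i ≠ i → t i = v) ∧
      ∀ i, (d * c * d⁻¹) i ≠ i → t i = v := by
  obtain ⟨t, h0, h1⟩ := exists_t (c.support ∪ d.support) (lt_of_le_of_lt (Finset.card_union_le _ _)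
    (by rw [hc.card_support, hd.card_support]; omega)) (fun _ => v)
  have a1 : ∀ i, c i ≠ i → t i = v := fun i hi => h1 i (Finset.mem_union_left _ (Perm.mem_support.2 hi))
  have a2 : ∀ i, d i ≠ i → t i = v := fun i hi => h1 i (Finset.mem_union_right _ (Perm.mem_support.2 hi))
  refine ⟨t, h0, a1, a2, fun i hi => ?_⟩
  by_cases e1 : c i = i
  · by_cases e2 : d i = i
    · refine absurd ?_ hi
      rw [Perm.mul_apply, Perm.mul_apply, Perm.inv_eq_iff_eq.2 e2.symm, e1, e2]
    · exact a2 i e2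
  · exact a1 i e1

omit T in
theorem shf_one (hn : 10 ≤ n) (v : G) {c : Perm (Fin n)} (hc : c.IsThreeCycle) :
    ∃ t : Fin n → G, ∑ i, t i = 0 ∧ ∀ i, c i ≠ i → t i = v :=
  (shf_two hn v hc hc).imp fun _ h => ⟨h.1, h.2.1⟩

theorem exists_sh (v : G) (P : Cond A) : ∃ Q : Cond A, ∀ (c : Perm (Fin n)) (t : Fin n → G),
    c.IsThreeCycle → ∑ i, t i = 0 → (∀ i, c i ≠ i → t i = v) →
      Q.val c = T.τ t * P.val c * (T.τ t)⁻¹ := by
  have hn := A.hn
  have h1 : ∀ c : Perm (Fin n), ∃ g : Γ, c.IsThreeCycle → ∀ t : Fin n → G, ∑ i, t i = 0 → (∀ i, c i ≠ i → t i = v) →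
      g = T.τ t * P.val c * (T.τ t)⁻¹ := fun c => by
    by_cases hc : c.IsThreeCycle
    · obtain ⟨t, h0, h1⟩ := shf_one hn v hc
      exact ⟨_, fun _ t' h0' h1' => T.shf_indep P hc h0 h0' h1 h1'⟩
    · exact ⟨1, fun h => absurd h hc⟩
  choose x hx using h1
  have hI : IsCond A x := by
    refine ⟨⟨fun c hc => ?_, fun c d hc hd => ?_, fun k a b c h1 h2 h3 h4 h5 h6 => ?_⟩, fun c J hc h1 h2 => ?_,
      fun d hd c hc => ?_⟩
    · obtain ⟨t, h0, h1⟩ := shf_one hn v hc
      rw [hx c hc t h0 h1, hx c⁻¹ hc.inv t h0 fun i hi => h1 i fun e => hi (Perm.inv_eq_iff_eq.2 e.symm),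
        P.is.pre.inv c hc]
      group
    · obtain ⟨t, h0, h1, h2, h3⟩ := shf_two hn v hc hd
      rw [hx c hc t h0 h1, hx d hd t h0 h2, hx _ (three_conj hc d) t h0 h3, ← P.is.pre.self c d hc hd]
      group
    · obtain ⟨t, h0, ht⟩ := exists_t ({k, a, b, c} : Finset (Fin n))
        (lt_of_le_of_lt Finset.card_le_four (by omega)) (fun _ => v)
      rw [hx _ (cy_three h1 h2 h4) t h0 fun i hi => ht i (by rcases cy_supp hi with e | e | e <;> simp [e]),
        hx _ (cy_three h2 h3 h6) t h0 fun i hi => ht i (by rcases cy_supp hi with e | e | e <;> simp [e]),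
        hx _ (cy_three h4 h5 h6) t h0 fun i hi => ht i (by rcases cy_supp hi with e | e | e <;> simp [e]),
        ← P.is.pre.four k a b c h1 h2 h3 h4 h5 h6]
      group
    · obtain ⟨t, h0, ht⟩ := shf_one hn v hc
      rw [hx c hc t h0 ht]
      exact T.norm t J _ h0 (P.is.mem c J hc h1 h2)
    · obtain ⟨t, h0, ht⟩ := shf_one hn v hc
      rw [hx c hc t h0 ht, hx _ (three_conj hc d) (fun i => t (d⁻¹ i)) (by rw [Equiv.sum_comp d⁻¹ t, h0])
        fun i hi => ht _ fun e => hi (by rw [Perm.mul_apply, Perm.mul_apply, e]; exact d.apply_symm_apply i),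
        ← T.perm d t hd h0, ← P.is.eqv d hd c hc]
      group
  exact ⟨Cond.mk' x hI, fun c t hc h0 ht => by rw [Cond.mk'_val hI hc, hx c hc t h0 ht]⟩

/-- the translate of `P` by `v` -/
def sh (v : G) (P : Cond A) : Cond A := (T.exists_sh v P).choose

theorem sh_val (v : G) (P : Cond A) {c : Perm (Fin n)} {t : Fin n → G} (hc : c.IsThreeCycle)
    (ht : ∑ i, t i = 0) (h : ∀ i, c i ≠ i → t i = v) :
    (T.sh v P).val c = T.τ t * P.val c * (T.τ t)⁻¹ := (T.exists_sh v P).choose_spec c t hc ht h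

theorem sh_zero (P : Cond A) : T.sh 0 P = P := by
  refine Cond.ext' fun c hc => ?_
  rw [T.sh_val 0 P hc (t := 0) (by simp) (fun _ _ => rfl), T.τ_zero]
  simp

theorem sh_add (v w : G) (P : Cond A) : T.sh (v + w) P = T.sh v (T.sh w P) := by
  refine Cond.ext' fun c hc => ?_
  obtain ⟨t, h0, ht⟩ := shf_one A.hn v hc
  obtain ⟨s, s0, hs⟩ := shf_one A.hn w hc
  rw [T.sh_val (v + w) P hc (t := t + s) (by simp [Finset.sum_add_distrib, h0, s0])
    (fun i hi => by rw [Pi.add_apply, ht i hi, hs i hi]), T.sh_val v _ hc h0 ht, T.sh_val w _ hc s0 hs, T.τ_add t s h0 s0]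
  group

theorem sh_top (v : G) : T.sh v (Cond.top A) = Cond.top A := by
  refine Cond.ext' fun c hc => ?_
  obtain ⟨t, h0, ht⟩ := shf_one A.hn v hc
  have e : (fun i => t (c⁻¹ i)) = t := funext fun i => by
    by_cases hi : c i = i
    · rw [Perm.inv_eq_iff_eq.2 hi.symm]
    · rw [ht i hi]
      refine ht _ fun e => hi ?_
      exact Perm.eq_inv_iff_eq.1 ((c.apply_symm_apply i).symm.trans e)
  have := T.perm c t hc h0
  rw [e, mul_inv_eq_iff_eq_mul] at this
  rw [T.sh_val v _ hc h0 ht, Cond.top_val hc, ← this, mul_inv_cancel_right]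

theorem sh_le (v : G) {P R : Cond A} (h : P.Le R) : (T.sh v P).Le (T.sh v R) := by
  intro d hd c hc
  obtain ⟨t, h0, h1, h2, h3⟩ := shf_two A.hn v hc hd
  rw [T.sh_val v P hc h0 h1, T.sh_val v R hd h0 h2, T.sh_val v P (three_conj hc d) h0 h3, ← h d hd c hc]
  group

theorem sh_orth (v : G) {P R : Cond A} (h : P.Orth R) : (T.sh v P).Orth (T.sh v R) := by
  intro c d hc hd
  obtain ⟨t, h0, h1, h2, -⟩ := shf_two A.hn v hc hd
  rw [T.sh_val v P hc h0 h1, T.sh_val v R hd h0 h2]
  exact (h c d hc hd).conj _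

theorem sh_mul (v : G) {P a b : Cond A}
    (h : ∀ c : Perm (Fin n), c.IsThreeCycle → P.val c = a.val c * b.val c) (c : Perm (Fin n))
    (hc : c.IsThreeCycle) : (T.sh v P).val c = (T.sh v a).val c * (T.sh v b).val c := by
  obtain ⟨t, h0, ht⟩ := shf_one A.hn v hc
  rw [T.sh_val v P hc h0 ht, T.sh_val v a hc h0 ht, T.sh_val v b hc h0 ht, h c hc]
  group

theorem sh_compl (v : G) (P : Cond A) : T.sh v P.compl = (T.sh v P).compl := by
  refine Cond.ext' fun c hc => ?_
  obtain ⟨t, h0, ht⟩ := shf_one A.hn v hc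
  have e := T.sh_val v (Cond.top A) hc h0 ht
  rw [T.sh_top, Cond.top_val hc] at e
  rw [T.sh_val v _ hc h0 ht, Cond.compl_val _ hc, Cond.compl_val _ hc, T.sh_val v P hc h0 ht]
  conv_rhs => rw [e]
  group

theorem sh_cp (v : G) {P R : Cond A} (h : P.Cp R) : (T.sh v P).Cp (T.sh v R) := by
  obtain ⟨a, b, h1, h2, h3⟩ := h
  exact ⟨T.sh v a, T.sh v b, T.sh_le v h1, T.sh_orth v h2, T.sh_mul v h3⟩

end Tr

end Crest.Agent.R189.B1

end
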