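import Crest.Agent.R189.B1.Inst
import Crest.Agent.R189.B1.K2
import Crest.Agent.R189.B1.Shift

/-!
# Row 189, block B1: export (order-theoretic form of the criteria and of the translation)
-/

set_option autoImplicit false
set_option linter.unusedVariables false

noncomputable section

namespace Crest.Agent.R189.B1

open Equiv C
open scoped commutatorElement

variable {n : ℕ} {Γ : Type*} [Group Γ] {A : Amb n Γ} {G : Type*} [AddCommGroup G]

namespace Tr

variable (T : Tr A G)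

theorem sh_neg_sh (v : G) (P : Cond A) : T.sh (-v) (T.sh v P) = P := by
  rw [← T.sh_add, neg_add_cancel, T.sh_zero]

theorem sh_sh_neg (v : G) (P : Cond A) : T.sh v (T.sh (-v) P) = P := by
  rw [← T.sh_add, add_neg_cancel, T.sh_zero]

theorem sh_mono (v : G) {P R : Cond A} (h : P ≤ R) : T.sh v P ≤ T.sh v R := T.sh_le v h

theorem sh_le_iff (v : G) {P R : Cond A} : T.sh v P ≤ T.sh v R ↔ P ≤ R :=
  ⟨fun h => by simpa [T.sh_neg_sh] using T.sh_mono (-v) h, T.sh_mono v⟩

theorem sh_compl' (v : G) (P : Cond A) : T.sh v Pᶜ = (T.sh v P)ᶜ := T.sh_compl v P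

theorem sh_top' (v : G) : T.sh v (⊤ : Cond A) = ⊤ := T.sh_top v

theorem sh_bot (v : G) : T.sh v (⊥ : Cond A) = ⊥ := by
  rw [← COMP.compl_top', T.sh_compl', T.sh_top']

theorem sh_cp' (v : G) {P R : Cond A} (h : COMP.Cp P R) : COMP.Cp (T.sh v P) (T.sh v R) := T.sh_cp v h

theorem sh_inf (v : G) {P R : Cond A} (h : COMP.Cp P R) : T.sh v (P ⊓ R) = T.sh v P ⊓ T.sh v R := by
  have h' := T.sh_cp' v h
  refine le_antisymm (COMP.le_inf' h' (T.sh_mono v (COMP.inf_le_l h)) (T.sh_mono v (COMP.inf_le_r h))) ?_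
  rw [← T.sh_sh_neg v (T.sh v P ⊓ T.sh v R)]
  refine T.sh_mono v (COMP.le_inf' h ?_ ?_)
  · simpa [T.sh_neg_sh] using T.sh_mono (-v) (COMP.inf_le_l h')
  · simpa [T.sh_neg_sh] using T.sh_mono (-v) (COMP.inf_le_r h')

theorem sh_sup (v : G) {P R : Cond A} (h : COMP.Cp P R) : T.sh v (P ⊔ R) = T.sh v P ⊔ T.sh v R := by
  rw [COMP.sup_eq, COMP.sup_eq, T.sh_compl', T.sh_inf v (COMP.cp_cc h), T.sh_compl', T.sh_compl']

/-- translation as a homomorphism of coherent orthomodular posets -/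
def hom (v : G) : COMP.Hom (Cond A) (Cond A) where
  toFun := T.sh v
  mono := T.sh_mono v
  compl := T.sh_compl' v
  cp := T.sh_cp' v
  inf := T.sh_inf v
  top := T.sh_top' v

end Tr

/-- finite criterion for compatibility -/
theorem cp_of_comm (P R : Cond A)
    (h : ∀ k a b c d : Fin n, k ≠ a → k ≠ b → k ≠ c → k ≠ d → a ≠ b → a ≠ c → a ≠ d → b ≠ c → b ≠ d →
      c ≠ d → ∀ t : Perm (Fin n), t.IsThreeCycle →
        Commute ⁅P.val (cy k a b), R.val (cy k c d)⁆ (A.one t * (P.val t)⁻¹) ∧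
        Commute ⁅P.val (cy k a b), R.val (cy k c d)⁆ (A.one t * (R.val t)⁻¹)) : COMP.Cp P R :=
  Cond.cp_of_comm P R h

/-- the iterated commutator `⁅f i₁ s, ⁅f i₂ s, … one⁆⁆` attached to a list of conditions: `s` and the
conjugator `g` are fixed (`⁅s, t⁆` is conjugate to `t`) -/
def word {ι : Type*} (one : Perm (Fin n) → Γ) (f : ι → Perm (Fin n) → Γ) (k a b c d : Fin n) :
    List ι → Γ
  | [] => one (cy k c d)
  | i :: l => one (cy a c d) * ⁅f i (cy k a b), word one f k a b c d l⁆ * (one (cy a c d))⁻¹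

theorem map_word {ι : Type*} {Γ' : Type*} [Group Γ'] (φ : Γ →* Γ') (one : Perm (Fin n) → Γ)
    (f : ι → Perm (Fin n) → Γ) (k a b c d : Fin n) (l : List ι) :
    φ (word one f k a b c d l) = word (fun s => φ (one s)) (fun i s => φ (f i s)) k a b c d l := by
  induction l with
  | nil => rfl
  | cons i l ih => simp only [word, map_mul, map_inv, map_commutatorElement, ih]

theorem cy_step {k a b c d : Fin n} (ka : k ≠ a) (kb : k ≠ b) (kc : k ≠ c)
    (kd : k ≠ d) (ab : a ≠ b) (ac : a ≠ c) (ad : a ≠ d) (bc : b ≠ c) (bd : b ≠ d) (cd : c ≠ d) :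
    cy a c d * ⁅cy k a b, cy k c d⁆ * (cy a c d)⁻¹ = cy k c d := by
  rw [cy_comm ka kb kc kd ab ac ad bc bd cd, conj_cy, cy_of_ne ka kc kd, cy_fst ac ad, cy_snd ad cd]

/-- the word acts on every condition below all `f i` as the 3-cycle `cy k c d` -/
theorem acts_word {ι : Type*} {z : Cond A} {f : ι → Cond A} {k a b c d : Fin n} (ka : k ≠ a) (kb : k ≠ b)
    (kc : k ≠ c) (kd : k ≠ d) (ab : a ≠ b) (ac : a ≠ c) (ad : a ≠ d) (bc : b ≠ c) (bd : b ≠ d) (cd : c ≠ d)
    (l : List ι) (h : ∀ i ∈ l, z ≤ f i) :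
    Acts z.val (word A.one (fun i => (f i).val) k a b c d l) (cy k c d) := by
  induction l with
  | nil => exact z.is.eqv _ (cy_three kc kd cd)
  | cons i l ih =>
    have h1 := z.is.eqv _ (cy_three ac ad cd)
    have := (h1.mul ((Cond.acts_of_le (h i (by simp)) (cy_three ka kb ab)).comm
      (ih fun j hj => h j (by simp [hj])))).mul h1.inv
    rwa [cy_step ka kb kc kd ab ac ad bc bd cd] at this

/-- if the word is trivial, nothing lies below all `f i` -/
theorem eq_bot_of_word {ι : Type*} {z : Cond A} {f : ι → Cond A} {k a b c d : Fin n} (ka : k ≠ a)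
    (kb : k ≠ b) (kc : k ≠ c) (kd : k ≠ d) (ab : a ≠ b) (ac : a ≠ c) (ad : a ≠ d) (bc : b ≠ c) (bd : b ≠ d)
    (cd : c ≠ d) (l : List ι) (h : ∀ i ∈ l, z ≤ f i)
    (hw : word A.one (fun i => (f i).val) k a b c d l = 1) : z = ⊥ := by
  have := acts_word ka kb kc kd ab ac ad bc bd cd l h
  rw [hw] at this
  exact Cond.eq_bot_of_acts (cy_three kc kd cd) this

end Crest.Agent.R189.B1

end
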