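import Crest.Agent.R189.C.Rig

/-!
# Row 189, block B1: 3-cycles and families of lifts of 3-cycles
-/

set_option autoImplicit false
set_option linter.unusedVariables false

namespace Crest.Agent.R189.B1

open Equiv C
open scoped commutatorElement

variable {n : ℕ} {Γ : Type*} [Group Γ]

section perm
variable {L : Type*} [DecidableEq L] {k a b c d : L}

theorem cy_thd (ab : a ≠ b) (ac : a ≠ c) (bc : b ≠ c) : cy a b c c = a := by
  simp [cy]

theorem cy_rot (ab : a ≠ b) (ac : a ≠ c) (bc : b ≠ c) : cy a b c = cy b c a := by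
  ext i
  simp only [cy, Perm.mul_apply, swap_apply_def]
  split_ifs <;> simp_all

theorem cy_inv (ab : a ≠ b) (ac : a ≠ c) (bc : b ≠ c) : (cy a b c)⁻¹ = cy a c b := by
  rw [inv_eq_iff_mul_eq_one]
  ext i
  simp only [cy, Perm.mul_apply, swap_apply_def, Perm.one_apply]
  split_ifs <;> simp_all

theorem cy_four (ka : k ≠ a) (kb : k ≠ b) (kc : k ≠ c) (ab : a ≠ b) (ac : a ≠ c) (bc : b ≠ c) :
    cy k a b * cy k b c = cy a b c := by
  ext i
  simp only [cy, Perm.mul_apply, swap_apply_def]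
  split_ifs <;> simp_all

theorem support_cy [Fintype L] (ab : a ≠ b) (ac : a ≠ c) (bc : b ≠ c) :
    (cy a b c).support = {a, b, c} := by
  ext i
  simp only [Perm.mem_support, Finset.mem_insert, Finset.mem_singleton]
  refine ⟨cy_supp, ?_⟩
  rintro (rfl | rfl | rfl)
  · rw [cy_fst ab ac]; exact ab.symm
  · rw [cy_snd ac bc]; exact bc.symm
  · rw [cy_thd ab ac bc]; exact ac

/-- a 3-cycle can be written with any point of its support first -/
theorem exists_cy_at [Fintype L] {s : Perm L} (h : s.IsThreeCycle) (ha : a ∈ s.support) :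
    ∃ b e, a ≠ b ∧ a ≠ e ∧ b ≠ e ∧ s = cy a b e := by
  have h1 := h.nodup_iff_mem_support.2 ha
  simp only [List.nodup_cons, List.mem_cons, List.not_mem_nil, or_false, not_or] at h1
  exact ⟨s a, s (s a), h1.1.1, h1.1.2, h1.2.1, h.eq_swap_mul_swap_iff_mem_support.2 ha⟩

theorem three_conj [Fintype L] {s : Perm L} (h : s.IsThreeCycle) (g : Perm L) :
    (g * s * g⁻¹).IsThreeCycle := by
  obtain ⟨a, b, e, h1, h2, h3, rfl⟩ := exists_cy h
  rw [conj_cy]
  exact cy_three (g.injective.ne h1) (g.injective.ne h2) (g.injective.ne h3)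

/-- the 3-cycles form one orbit under conjugation by 3-cycles -/
theorem three_ind [Fintype L] (h5 : 5 ≤ Fintype.card L) {p : Perm L → Prop}
    (hp : ∀ s t : Perm L, s.IsThreeCycle → t.IsThreeCycle → p s → p (t * s * t⁻¹))
    {s t : Perm L} (hs : s.IsThreeCycle) (ht : t.IsThreeCycle) (h : p s) : p t := by
  have key : ∀ g ∈ Subgroup.closure {σ : Perm L | σ.IsThreeCycle},
      ∀ s : Perm L, s.IsThreeCycle → p s → p (g * s * g⁻¹) := by
    intro g hg
    refine Subgroup.closure_induction_left (p := fun g _ => ∀ s : Perm L, s.IsThreeCycle → p s →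
      p (g * s * g⁻¹)) (fun s _ h => by simpa using h) ?_ ?_ hg
    · intro x hx y _ ih s hs h
      have := hp _ x (three_conj hs y) hx (ih s hs h)
      simpa [mul_assoc] using this
    · intro x hx y _ ih s hs h
      have := hp _ x⁻¹ (three_conj hs y) (Perm.IsThreeCycle.inv hx) (ih s hs h)
      simpa [mul_assoc] using this
  have hc := alternatingGroup.isThreeCycle_isConj (α := L) (by simpa using h5)
    (σ := ⟨s, hs.mem_alternatingGroup⟩) (τ := ⟨t, ht.mem_alternatingGroup⟩) hs ht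
  obtain ⟨g, hg⟩ := isConj_iff.1 hc
  have hg' : (g : Perm L) * s * (g : Perm L)⁻¹ = t := congrArg Subtype.val hg
  rw [← hg']
  exact key g (by rw [Perm.closure_three_cycles_eq_alternating]; exact g.2) s hs h

end perm

/-- two disjoint sets of five levels around two disjoint sets of at most five levels -/
theorem exists_five (hn : 10 ≤ n) {I J : Finset (Fin n)} (h : Disjoint I J) (hI : I.card ≤ 5)
    (hJ : J.card ≤ 5) : ∃ I' J' : Finset (Fin n), I ⊆ I' ∧ J ⊆ J' ∧ Disjoint I' J' ∧ I'.card = 5 ∧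
      J'.card = 5 := by
  obtain ⟨I', h1, h2, h3⟩ := Finset.exists_subsuperset_card_eq (s := I) (t := Jᶜ) (n := 5)
    (Finset.subset_compl_iff_disjoint_right.2 h) hI (by rw [Finset.card_compl, Fintype.card_fin]; omega)
  have hd : Disjoint J I' := (Finset.subset_compl_iff_disjoint_right.1 h2).symm
  obtain ⟨J', h4, h5, h6⟩ := Finset.exists_subsuperset_card_eq (s := J) (t := I'ᶜ) (n := 5)
    (Finset.subset_compl_iff_disjoint_right.2 hd) hJ (by rw [Finset.card_compl, Fintype.card_fin]; omega)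
  exact ⟨I', J', h1, h4, (Finset.subset_compl_iff_disjoint_right.1 h5).symm, h3, h6⟩

/-- two more levels inside `J` -/
theorem exists_two_in {J F : Finset (Fin n)} (h : F.card + 2 ≤ J.card) :
    ∃ a b, a ∈ J ∧ b ∈ J ∧ a ∉ F ∧ b ∉ F ∧ a ≠ b := by
  have h1 : 1 < (J \ F).card := by
    have := Finset.le_card_sdiff F J
    omega
  obtain ⟨a, ha, b, hb, hab⟩ := Finset.one_lt_card.1 h1
  rw [Finset.mem_sdiff] at ha hb
  exact ⟨a, b, ha.1, hb.1, ha.2, hb.2, hab⟩

/-- a coherent family of lifts of the 3-cycles -/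
structure Pre (x : Perm (Fin n) → Γ) : Prop where
  inv : ∀ c : Perm (Fin n), c.IsThreeCycle → x c⁻¹ = (x c)⁻¹
  self : ∀ c d : Perm (Fin n), c.IsThreeCycle → d.IsThreeCycle →
    x d * x c * (x d)⁻¹ = x (d * c * d⁻¹)
  four : ∀ k a b c : Fin n, k ≠ a → k ≠ b → k ≠ c → a ≠ b → a ≠ c → b ≠ c →
    x (cy k a b) * x (cy k b c) = x (cy a b c)

/-- `g` acts on the family `z` as the permutation `σ` -/
def Acts (z : Perm (Fin n) → Γ) (g : Γ) (σ : Perm (Fin n)) : Prop :=
  ∀ t : Perm (Fin n), t.IsThreeCycle → g * z t * g⁻¹ = z (σ * t * σ⁻¹)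

theorem Acts.one (z : Perm (Fin n) → Γ) : Acts z 1 1 := fun t _ => by simp

theorem Acts.mul {z : Perm (Fin n) → Γ} {g h : Γ} {σ τ : Perm (Fin n)} (h1 : Acts z g σ)
    (h2 : Acts z h τ) : Acts z (g * h) (σ * τ) := fun t ht => by
  have e1 := h2 t ht
  have e2 := h1 _ (three_conj ht τ)
  rw [← e1] at e2
  simpa [mul_assoc] using e2

theorem Acts.inv {z : Perm (Fin n) → Γ} {g : Γ} {σ : Perm (Fin n)} (h : Acts z g σ) :
    Acts z g⁻¹ σ⁻¹ := fun t ht => by
  have e := h _ (three_conj ht σ⁻¹)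
  have e' : σ * (σ⁻¹ * t * σ⁻¹⁻¹) * σ⁻¹ = t := by group
  rw [e'] at e
  rw [← e]; group

theorem Acts.comm {z : Perm (Fin n) → Γ} {g h : Γ} {σ τ : Perm (Fin n)} (h1 : Acts z g σ)
    (h2 : Acts z h τ) : Acts z ⁅g, h⁆ ⁅σ, τ⁆ := by
  rw [commutatorElement_def, commutatorElement_def]
  exact ((h1.mul h2).mul h1.inv).mul h2.inv

theorem Acts.of_commute {z : Perm (Fin n) → Γ} {g : Γ}
    (h : ∀ t : Perm (Fin n), t.IsThreeCycle → Commute g (z t)) : Acts z g 1 := fun t ht => by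
  rw [(h t ht).eq]; simp

theorem Acts.commute {z : Perm (Fin n) → Γ} {g : Γ} (h : Acts z g 1) {t : Perm (Fin n)}
    (ht : t.IsThreeCycle) : Commute g (z t) := by
  have := h t ht
  simp only [one_mul, inv_one, mul_one] at this
  exact mul_inv_eq_iff_eq_mul.1 this

section five
variable {k a b c d : Fin n}

theorem cy_comm (ka : k ≠ a) (kb : k ≠ b) (kc : k ≠ c) (kd : k ≠ d) (ab : a ≠ b) (ac : a ≠ c)
    (ad : a ≠ d) (bc : b ≠ c) (bd : b ≠ d) (cd : c ≠ d) : ⁅cy k a b, cy k c d⁆ = cy k a c := by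
  rw [commutatorElement_def, conj_cy, cy_fst ka kb, cy_of_ne kc.symm ac.symm bc.symm,
    cy_of_ne kd.symm ad.symm bd.symm, ← cy_four ka kc kd ac ad cd, mul_inv_cancel_right]

theorem Pre.comm {x : Perm (Fin n) → Γ} (h : Pre x) (ka : k ≠ a) (kb : k ≠ b) (kc : k ≠ c)
    (kd : k ≠ d) (ab : a ≠ b) (ac : a ≠ c) (ad : a ≠ d) (bc : b ≠ c) (bd : b ≠ d) (cd : c ≠ d) :
    x (cy k a c) = ⁅x (cy k a b), x (cy k c d)⁆ := by
  rw [commutatorElement_def, h.self _ _ (cy_three kc kd cd) (cy_three ka kb ab), conj_cy, cy_fst ka kb,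
    cy_of_ne kc.symm ac.symm bc.symm, cy_of_ne kd.symm ad.symm bd.symm,
    ← h.four k a c d ka kc kd ac ad cd, mul_inv_cancel_right]

end five

theorem Pre.acts {x : Perm (Fin n) → Γ} (h : Pre x) {d : Perm (Fin n)} (hd : d.IsThreeCycle) :
    Acts x (x d) d := fun t ht => h.self t d ht hd

/-- a family on which a 3-cycle acts trivially is trivial -/
theorem Pre.eq_one_of_acts (hn : 5 ≤ n) {x : Perm (Fin n) → Γ} (h : Pre x) {s : Perm (Fin n)}
    (hs : s.IsThreeCycle) (h1 : Acts x 1 s) {t : Perm (Fin n)} (ht : t.IsThreeCycle) : x t = 1 := by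
  have h5 : 5 ≤ Fintype.card (Fin n) := by simpa using hn
  have h2 : ∀ s' : Perm (Fin n), s'.IsThreeCycle → Acts x 1 s' := fun s' hs' =>
    three_ind h5 (p := fun s => Acts x 1 s) (fun s t _ ht h1 => by
      simpa using ((h.acts ht).mul h1).mul (h.acts ht).inv) hs hs' h1
  have h3 : ∀ t' : Perm (Fin n), t'.IsThreeCycle → x t' = x t := fun t' ht' =>
    three_ind h5 (p := fun s => x s = x t) (fun s t hs ht h1 => by
      rw [← h2 t ht s hs]; simpa using h1) ht ht' rfl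
  obtain ⟨k, a, c, ka, kc, ac, rfl⟩ := exists_cy ht
  obtain ⟨b, d, hb, hd, bd⟩ := exists_fresh2 ({k, a, c} : Finset (Fin n))
    (lt_of_le_of_lt (Nat.succ_le_succ Finset.card_le_three) (by omega))
  simp only [Finset.mem_insert, Finset.mem_singleton, not_or] at hb hd
  rw [h.comm ka (Ne.symm hb.1) kc (Ne.symm hd.1) (Ne.symm hb.2.1) ac (Ne.symm hd.2.1) hb.2.2 bd
    (Ne.symm hd.2.2), h3 _ (cy_three ka (Ne.symm hb.1) (Ne.symm hb.2.1)),
    h3 _ (cy_three kc (Ne.symm hd.1) (Ne.symm hd.2.2)), commutatorElement_self]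

/-- generation by the 3-cycles with two points outside `F` -/
theorem Pre.mem_of_fresh {x : Perm (Fin n) → Γ} (h : Pre x) (H : Subgroup Γ) {F : Finset (Fin n)}
    (hF : F.card + 5 ≤ n)
    (hH : ∀ a k l, a ≠ k → a ≠ l → k ≠ l → k ∉ F → l ∉ F → x (cy a k l) ∈ H)
    {t : Perm (Fin n)} (ht : t.IsThreeCycle) : x t ∈ H := by
  obtain ⟨a, b, c, ab, ac, bc, rfl⟩ := exists_cy ht
  obtain ⟨k, l, hk, hl, kl⟩ := exists_fresh2 (F ∪ {a, b, c})
    (lt_of_le_of_lt (Nat.succ_le_succ ((Finset.card_union_le _ _).trans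
      (Nat.add_le_add_left Finset.card_le_three _))) (by omega))
  simp only [Finset.mem_union, Finset.mem_insert, Finset.mem_singleton, not_or] at hk hl
  have key : ∀ u v, u ≠ v → k ≠ u → k ≠ v → l ≠ u → l ≠ v → x (cy k u v) ∈ H := by
    intro u v uv ku kv lu lv
    rw [cy_rot ku kv uv, cy_rot uv ku.symm kv.symm, ← h.four l v k u lv kl.symm lu kv.symm uv.symm ku,
      cy_rot lv kl.symm kv.symm, cy_rot kl.symm lu ku, cy_rot ku kl lu.symm]
    exact H.mul_mem (hH v k l kv.symm lv.symm kl hk.1 hl.1) (hH u l k lu.symm ku.symm kl.symm hl.1 hk.1)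
  rw [← h.four k a b c hk.2.1 hk.2.2.1 hk.2.2.2 ab ac bc]
  exact H.mul_mem (key a b ab hk.2.1 hk.2.2.1 hl.2.1 hl.2.2.1)
    (key b c bc hk.2.2.1 hk.2.2.2 hl.2.2.1 hl.2.2.2)

end Crest.Agent.R189.B1
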